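import Vale.Agent.P032.S5.H767.Raw

/-!
# Block X, M vertices: a K corner of type 1 next to a gap is impossible (window theorem)

`V = (ab|cd)`, `y` a point of order four of `S(V)` in direction `φ` (units of 60 degrees) with
`T y = {a,c,d,f}` and pairs `ac`, `df`. If the exact `cd`-arc of `S(V)` near the direction `φ + 2` ends
in `{c,d,e}` at `φ + 2 + s`, `0 < s < 1`, while `S(V)` has only the colours `e, f` in the directions
`φ + 3 + t`, `0 < t ≤ s`, and `S(y)` has no `a` there, and the apex `pt y (φ + 2)` has only the colour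
`e`: contradiction. All simultaneous changes are allowed.
-/

open Set Filter Topology Metric

noncomputable section

namespace Vale.Agent.P032.H274

open Vale.Agent.P032.Six Vale.Agent.P032.S5.H767

variable {U : Fin 6 → Set ℂ} {T : ℂ → Set (Fin 6)}

/-- a point with one colour: the colour is absent on its unit circle -/
theorem pure_off (h : Irr U T) {x y : ℂ} {i : Fin 6} (hx : T x ⊆ {i}) (hxy : dist x y = 1)
    (hi : i ∈ T y) : False :=
  h.mx.notMem' (h.mem_of_single hx) hxy (h.sub y hi)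

/-- Lemma B -/
theorem twoP (h : Irr U T) {x y y' : ℂ} {i j : Fin 6} (hx : T x ⊆ {i, j}) (hy : dist x y = 1)
    (hy' : dist x y' = 1) (hne : y' ≠ y) (hne2 : y' + y ≠ 2 * x) (hi : i ∈ T y) (hj : j ∈ T y') :
    False := by
  rcases h.lemmaB hx hy hy' (h.sub _ hi) (h.sub _ hj) with h1 | h1
  · exact hne h1
  · exact hne2 h1

/-! ### geometry of the slots -/

theorem cis_ne_one {s : ℝ} (h0 : 0 < s) (h1 : s < 2 * Real.pi) : cis s ≠ 1 := by
  intro h
  have h2 : Real.cos s = 1 := by
    have := congrArg Complex.re h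
    simpa [cis, Complex.exp_ofReal_mul_I_re] using this
  have h3 := (Real.cos_eq_one_iff_of_lt_of_lt (x := s) (by linarith) (by linarith)).1 h2
  linarith

theorem cis_ne_neg_one {s : ℝ} (h0 : -Real.pi < s) (h1 : s < Real.pi) : cis s ≠ -1 := by
  intro h
  have h2 : cis (s + Real.pi) = 1 := by rw [cis_add, cis_pi, h]; ring
  exact cis_ne_one (by linarith) (by linarith) h2

/-- parallel slots of `V` and `y = pt V φ` -/
theorem pt_par (V : ℂ) (φ x : ℝ) : pt (pt V φ) x = pt V x + (pt V φ - V) := by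
  unfold pt
  ring

theorem dist_par (V : ℂ) (φ x : ℝ) : dist (pt V x) (pt (pt V φ) x) = 1 := by
  rw [pt_par, dist_eq_norm]
  have : pt V x - (pt V x + (pt V φ - V)) = -(pt V φ - V) := by ring
  rw [this, norm_neg, ← dist_eq_norm, dist_pt]

theorem dist_slot (z : ℂ) (φ k t : ℝ) : dist (pt z (φ + k + t)) (pt z (φ + (k + 1) + t)) = 1 := by
  have := dist_pt_one z (φ + k + t)
  rwa [show φ + k + t + 1 = φ + (k + 1) + t by ring] at this

theorem pt_slot3 (z : ℂ) (φ t : ℝ) :
    pt z (φ + 3 + t) = pt z (φ + 2 + t) + (pt z (φ + 4 + t) - z) := by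
  have := pt_sum z (φ + 2 + t)
  rw [show φ + 2 + t + 2 = φ + 4 + t by ring, show φ + 2 + t + 1 = φ + 3 + t by ring] at this
  linear_combination -this

/-- `e(x) ≠ ± e(x')` -/
theorem pt_ne {z : ℂ} {x x' : ℝ} (h : x < x') (h' : x' < x + 3) :
    pt z x' - z ≠ pt z x - z ∧ pt z x' - z ≠ -(pt z x - z) := by
  have hp := Real.pi_pos
  have e : pt z x' - z = (pt z x - z) * cis ((x' - x) * (Real.pi / 3)) := by
    unfold pt
    have : x' * (Real.pi / 3) = x * (Real.pi / 3) + (x' - x) * (Real.pi / 3) := by ring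
    rw [this, cis_add]
    ring
  have hn : pt z x - z ≠ 0 := by
    intro h0
    have := dist_pt z x
    rw [dist_eq_norm, h0, norm_zero] at this
    norm_num at this
  have h1 : 0 < (x' - x) * (Real.pi / 3) := by
    apply mul_pos <;> linarith
  have h2 : (x' - x) * (Real.pi / 3) < Real.pi := by nlinarith
  constructor
  · intro h3
    rw [e] at h3
    have h4 : cis ((x' - x) * (Real.pi / 3)) = 1 := by
      apply mul_left_cancel₀ hn
      rw [h3, mul_one]
    exact cis_ne_one h1 (by linarith) h4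
  · intro h3
    rw [e] at h3
    have h4 : cis ((x' - x) * (Real.pi / 3)) = -1 := by
      apply mul_left_cancel₀ hn
      rw [h3]
      ring
    exact cis_ne_neg_one (by linarith) h2 h4

/-- the window theorem -/
theorem gap274 (h : Irr U T) {V y : ℂ} {φ s : ℝ} {a b c d e f : Fin 6} (hy : y = pt V φ)
    (hn : [a, b, c, d, e, f].Nodup)
    (hcV : c ∈ T V) (hdV : d ∈ T V)
    (hpr : ∀ x, dist x y = 1 → (T x).ncard ≤ 3 → (a ∈ T x ↔ c ∈ T x) ∧ (d ∈ T x ↔ f ∈ T x))
    (hs0 : 0 < s) (hs1 : s < 1)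
    (hC : ∀ t, 0 < t → t < s → pt V (φ + 2 + t) ∈ Ex T V {c, d})
    (hq : T (pt V (φ + 2 + s)) = {c, d, e})
    (hv3 : ∀ t, 0 < t → t ≤ s → T (pt V (φ + 3 + t)) ⊆ {e, f})
    (hu3 : ∀ t, 0 < t → t ≤ s → a ∉ T (pt y (φ + 3 + t)))
    (h32 : ∀ t, 0 < t → t ≤ s → (T (pt y (φ + 2 + t))).ncard ≤ 3)
    (h33 : ∀ t, 0 < t → t ≤ s → (T (pt y (φ + 3 + t))).ncard ≤ 3)
    (hap : T (pt y (φ + 2)) ⊆ {e}) : False := by
  have hall : ∀ i : Fin 6, i = a ∨ i = b ∨ i = c ∨ i = d ∨ i = e ∨ i = f := by
    intro i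
    have h1 : ([a, b, c, d, e, f] : List (Fin 6)).toFinset = Finset.univ := by
      apply Finset.eq_univ_of_card
      rw [List.toFinset_card_of_nodup hn]
      rfl
    have h2 : i ∈ ([a, b, c, d, e, f] : List (Fin 6)).toFinset := h1 ▸ Finset.mem_univ i
    simpa using h2
  simp only [List.nodup_cons, List.mem_cons, List.not_mem_nil, or_false, not_or,
    List.nodup_nil, and_true, not_false_eq_true] at hn
  obtain ⟨⟨nab, nac, nad, nae, naf⟩, ⟨nbc, nbd, nbe, nbf⟩, ⟨ncd, nce, ncf⟩, ⟨nde, ndf⟩, nef⟩ := hn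
  -- distances
  have dvu : ∀ x, dist (pt V x) (pt y x) = 1 := fun x => by rw [hy]; exact dist_par V φ x
  have dv : ∀ t, dist (pt V (φ + 2 + t)) (pt V (φ + 3 + t)) = 1 := fun t => by
    have := dist_slot V φ 2 t
    rwa [show (2 : ℝ) + 1 = 3 by norm_num] at this
  have du : ∀ t, dist (pt y (φ + 2 + t)) (pt y (φ + 3 + t)) = 1 := fun t => by
    have := dist_slot y φ 2 t
    rwa [show (2 : ℝ) + 1 = 3 by norm_num] at this
  have hyx : ∀ x, pt y x = pt V x + (pt V φ - V) := fun x => by rw [hy]; exact pt_par V φ x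
  -- the four directions at `v3`: `v2 - v3 = -e(φ+4+t)`, `u3 - v3 = e(φ)`
  have off3 : ∀ t, 0 < t → t < 1 → pt y (φ + 3 + t) ≠ pt V (φ + 2 + t) ∧
      pt y (φ + 3 + t) + pt V (φ + 2 + t) ≠ 2 * pt V (φ + 3 + t) := by
    intro t h0 h1
    have k := pt_ne (z := V) (x := φ + 4 + t - 3) (x' := φ + 3) (by linarith) (by linarith)
    have e3 : pt V (φ + 4 + t) - V = -(pt V (φ + 4 + t - 3) - V) := by
      have := pt_three V (φ + 4 + t - 3)
      rw [show φ + 4 + t - 3 + 3 = φ + 4 + t by ring] at this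
      rw [this]
      ring
    have e4 : pt V (φ + 3) - V = -(pt V φ - V) := by
      rw [pt_three]
      ring
    rw [hyx, pt_slot3]
    constructor
    · intro h2
      apply k.2
      rw [e4]
      rw [e3] at h2
      linear_combination -h2
    · intro h2
      apply k.1
      rw [e4]
      rw [e3] at h2
      linear_combination -h2
  -- at `u2`: `v2 - u2 = -e(φ)`, `u3 - u2 = e(φ+4+t)`
  have off2 : ∀ t, 0 < t → t < 1 → pt y (φ + 3 + t) ≠ pt V (φ + 2 + t) ∧
      pt y (φ + 3 + t) + pt V (φ + 2 + t) ≠ 2 * pt y (φ + 2 + t) := by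
    intro t h0 h1
    refine ⟨(off3 t h0 h1).1, fun h2 => ?_⟩
    have k := pt_ne (z := V) (x := φ + 4 + t - 3) (x' := φ + 3) (by linarith) (by linarith)
    have e3 : pt V (φ + 4 + t) - V = -(pt V (φ + 4 + t - 3) - V) := by
      have := pt_three V (φ + 4 + t - 3)
      rw [show φ + 4 + t - 3 + 3 = φ + 4 + t by ring] at this
      rw [this]
      ring
    have e4 : pt V (φ + 3) - V = -(pt V φ - V) := by
      rw [pt_three]
      ring
    rw [hyx, hyx, pt_slot3] at h2
    apply k.1
    rw [e4]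
    rw [e3] at h2
    linear_combination h2
  -- at `v2`: `u2 - v2 = e(φ)`, `V - v2 = -e(φ+2+t)`
  have offq : ∀ t, 0 < t → t < 1 → V ≠ pt y (φ + 2 + t) ∧
      V + pt y (φ + 2 + t) ≠ 2 * pt V (φ + 2 + t) := by
    intro t h0 h1
    have k := pt_ne (z := V) (x := φ) (x' := φ + 2 + t) (by linarith) (by linarith)
    rw [hyx]
    constructor
    · intro h2
      apply k.2
      linear_combination -h2
    · intro h2
      apply k.1
      linear_combination -h2
  -- continuity
  have cl : ∀ (z : ℂ) (k : ℝ) (i : Fin 6), IsClosed {t : ℝ | i ∈ T (pt z (φ + k + t))} := by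
    intro z k i
    exact (h.closed i).preimage ((continuous_pt z).comp (by fun_prop))
  -- `u2` over the arc
  have u2cd : ∀ t, 0 < t → t < s → c ∉ T (pt y (φ + 2 + t)) ∧ d ∉ T (pt y (φ + 2 + t)) := by
    intro t h0 h1
    have hE := hC t h0 h1
    have o := offq t h0 (by linarith)
    have hd1 : dist (pt V (φ + 2 + t)) (pt y (φ + 2 + t)) = 1 := dvu _
    constructor
    · intro hc
      refine line_free h (dist_pt V (φ + 2 + t)) (t := c) ?_ hd1 (fun h1 => o.1 h1.symm)
        (fun h2 => o.2 (by rw [← h2]; ring)) (h.sub _ hc)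
      filter_upwards [hE.2] with q hq
      rw [hq]
      exact Or.inl rfl
    · intro hc
      refine line_free h (dist_pt V (φ + 2 + t)) (t := d) ?_ hd1 (fun h1 => o.1 h1.symm)
        (fun h2 => o.2 (by rw [← h2]; ring)) (h.sub _ hc)
      filter_upwards [hE.2] with q hq
      rw [hq]
      exact Or.inr rfl
  have u2sub : ∀ t, 0 < t → t < s → T (pt y (φ + 2 + t)) ⊆ {b, e} := by
    intro t h0 h1 i hi
    obtain ⟨hc, hd⟩ := u2cd t h0 h1
    obtain ⟨p1, p2⟩ := hpr _ (dist_pt y (φ + 2 + t)) (h32 t h0 h1.le)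
    rcases hall i with rfl | rfl | rfl | rfl | rfl | rfl
    · exact absurd (p1.1 hi) hc
    · exact Or.inl rfl
    · exact absurd hi hc
    · exact absurd hi hd
    · exact Or.inr rfl
    · exact absurd (p2.2 hi) hd
  have heq : e ∈ T (pt V (φ + 2 + s)) := by rw [hq]; exact Or.inr (Or.inr rfl)
  -- (1)
  have s1 : f ∉ T (pt y (φ + 3 + s)) := by
    intro hf
    have o := off3 s hs0 hs1
    exact twoP h (hv3 s hs0 le_rfl) (by rw [dist_comm]; exact dv s) (dvu _) o.1 o.2 heq hf
  -- (2)
  have s2 : ∀ t, 0 < t → t ≤ s → e ∈ T (pt y (φ + 3 + t)) → f ∈ T (pt y (φ + 3 + t)) → False := by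
    intro t h0 h1 he hf
    refine h.not_sub (dvu (φ + 3 + t)) (h33 t h0 h1) ((hv3 t h0 h1).trans ?_)
    rintro i (rfl | rfl)
    · exact he
    · exact hf
  have u3sub : ∀ t, 0 < t → t ≤ s → b ∉ T (pt y (φ + 3 + t)) → T (pt y (φ + 3 + t)) ⊆ {d, e, f} := by
    intro t h0 h1 hb i hi
    obtain ⟨p1, p2⟩ := hpr _ (dist_pt y (φ + 3 + t)) (h33 t h0 h1)
    have ha := hu3 t h0 h1
    rcases hall i with rfl | rfl | rfl | rfl | rfl | rfl
    · exact absurd hi ha
    · exact absurd hi hb
    · exact absurd (p1.2 hi) ha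
    · exact Or.inl rfl
    · exact Or.inr (Or.inl rfl)
    · exact Or.inr (Or.inr rfl)
  have u3e : ∀ t, 0 < t → t ≤ s → b ∉ T (pt y (φ + 3 + t)) → f ∉ T (pt y (φ + 3 + t)) →
      T (pt y (φ + 3 + t)) ⊆ {e} := by
    intro t h0 h1 hb hf i hi
    obtain ⟨p1, p2⟩ := hpr _ (dist_pt y (φ + 3 + t)) (h33 t h0 h1)
    rcases u3sub t h0 h1 hb hi with rfl | rfl | rfl
    · exact absurd (p2.1 hi) hf
    · rfl
    · exact absurd hi hf
  by_cases hes : e ∈ T (pt y (φ + 2 + s))
  · -- the case `t* = s`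
    have o := offq s hs0 hs1
    have hcs : c ∉ T (pt y (φ + 2 + s)) := by
      intro hc
      have hsub : T (pt V (φ + 2 + s)) ⊆ insert d (T (pt y (φ + 2 + s))) := by
        rw [hq]
        rintro i (rfl | rfl | rfl)
        · exact Or.inr hc
        · exact Or.inl rfl
        · exact Or.inr hes
      rcases h.lemmaX (dvu _) (h32 s hs0 le_rfl) hsub (dist_pt V _) (h.sub _ hdV) with h1 | h1
      · exact o.1 h1
      · exact o.2 h1
    have hds : d ∉ T (pt y (φ + 2 + s)) := by
      intro hd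
      have hsub : T (pt V (φ + 2 + s)) ⊆ insert c (T (pt y (φ + 2 + s))) := by
        rw [hq]
        rintro i (rfl | rfl | rfl)
        · exact Or.inl rfl
        · exact Or.inr hd
        · exact Or.inr hes
      rcases h.lemmaX (dvu _) (h32 s hs0 le_rfl) hsub (dist_pt V _) (h.sub _ hcV) with h1 | h1
      · exact o.1 h1
      · exact o.2 h1
    obtain ⟨p1, p2⟩ := hpr _ (dist_pt y (φ + 2 + s)) (h32 s hs0 le_rfl)
    have hsub : T (pt y (φ + 2 + s)) ⊆ {e, b} := by
      intro i hi
      rcases hall i with rfl | rfl | rfl | rfl | rfl | rfl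
      · exact absurd (p1.1 hi) hcs
      · exact Or.inr rfl
      · exact absurd hi hcs
      · exact absurd hi hds
      · exact Or.inl rfl
      · exact absurd (p2.2 hi) hds
    have hb : b ∉ T (pt y (φ + 3 + s)) := by
      intro hb
      have o2 := off2 s hs0 hs1
      exact twoP h hsub (by rw [dist_comm]; exact dvu _) (du s) o2.1 o2.2 heq hb
    exact pure_off h (u3e s hs0 le_rfl hb s1) (by rw [dist_comm]; exact du s) hes
  · -- the case `t* < s`
    set S : Set ℝ := {t | e ∈ T (pt y (φ + 2 + t))} ∩ Icc 0 s with hS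
    have hSc : IsClosed S := (cl y 2 e).inter isClosed_Icc
    have hap' : e ∈ T (pt y (φ + 2 + 0)) := by
      rw [add_zero]
      obtain ⟨i, hi⟩ := h.ne (pt y (φ + 2))
      have := hap hi
      rw [mem_singleton_iff] at this
      exact this ▸ hi
    have h0S : (0 : ℝ) ∈ S := ⟨hap', le_rfl, hs0.le⟩
    have hbdd : BddAbove S := ⟨s, fun t ht => ht.2.2⟩
    have htS : sSup S ∈ S := hSc.csSup_mem ⟨0, h0S⟩ hbdd
    set r := sSup S with hr
    have hrs : r < s := lt_of_le_of_ne htS.2.2 fun h1 => hes (h1 ▸ htS.1)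
    -- `0 < r`
    have hr0 : 0 < r := by
      have h1 : ∀ᶠ t in 𝓝 (0 : ℝ), T (pt y (φ + 2 + t)) ⊆ T (pt y (φ + 2 + 0)) := by
        have hc : ContinuousAt (fun t : ℝ => pt y (φ + 2 + t)) 0 :=
          ((continuous_pt y).comp (by fun_prop)).continuousAt
        exact hc.eventually (h.nhd (pt y (φ + 2 + 0)))
      obtain ⟨ε, hε, hb⟩ := Metric.eventually_nhds_iff.1 h1
      have hm : min (ε / 2) s ∈ S := by
        have hpos : 0 < min (ε / 2) s := lt_min (by linarith) hs0
        refine ⟨?_, hpos.le, min_le_right _ _⟩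
        have h2 := hb (y := min (ε / 2) s) (by
          rw [Real.dist_eq, sub_zero, abs_of_pos hpos]
          exact lt_of_le_of_lt (min_le_left _ _) (by linarith))
        obtain ⟨i, hi⟩ := h.ne (pt y (φ + 2 + min (ε / 2) s))
        have h3 := h2 hi
        rw [add_zero] at h3
        have := hap h3
        rw [mem_singleton_iff] at this
        exact this ▸ hi
      exact lt_of_lt_of_le (lt_min (by linarith) hs0) (le_csSup hbdd hm)
    have hne : ∀ t, r < t → t < s → e ∉ T (pt y (φ + 2 + t)) := by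
      intro t h1 h2 he
      have : t ≤ r := le_csSup hbdd ⟨he, by linarith, h2.le⟩
      linarith
    have u2b : ∀ t, r < t → t < s → T (pt y (φ + 2 + t)) ⊆ {b} := by
      intro t h1 h2 i hi
      rcases u2sub t (by linarith) h2 hi with rfl | rfl
      · rfl
      · exact absurd hi (hne t h1 h2)
    have u3b : ∀ t, r < t → t < s → b ∉ T (pt y (φ + 3 + t)) := by
      intro t h1 h2 hb
      exact pure_off h (u2b t h1 h2) (du t) hb
    -- `e ∈ u3` on `(r, s)`
    have hG : ∀ t, r < t → t < s → e ∈ T (pt y (φ + 3 + t)) := by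
      intro t0 h1 h2
      by_contra he
      have hf : f ∈ T (pt y (φ + 3 + t0)) := by
        by_contra hf
        obtain ⟨i, hi⟩ := h.ne (pt y (φ + 3 + t0))
        have := u3e t0 (by linarith) h2.le (u3b t0 h1 h2) hf hi
        rw [mem_singleton_iff] at this
        exact he (this ▸ hi)
      set S' : Set ℝ := {t | f ∈ T (pt y (φ + 3 + t))} ∩ Icc t0 s with hS'
      have hSc' : IsClosed S' := (cl y 3 f).inter isClosed_Icc
      have hb' : BddAbove S' := ⟨s, fun t ht => ht.2.2⟩
      have hm' : sSup S' ∈ S' := hSc'.csSup_mem ⟨t0, hf, le_rfl, h2.le⟩ hb'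
      have hlt : sSup S' < s := lt_of_le_of_ne hm'.2.2 fun h3 => s1 (h3 ▸ hm'.1)
      have hge : t0 ≤ sSup S' := hm'.2.1
      -- `e` on `(sSup S', s)`
      have hee : ∀ t, sSup S' < t → t < s → e ∈ T (pt y (φ + 3 + t)) := by
        intro t h3 h4
        have hf' : f ∉ T (pt y (φ + 3 + t)) := fun h5 => by
          have : t ≤ sSup S' := le_csSup hb' ⟨h5, by linarith, h4.le⟩
          linarith
        obtain ⟨i, hi⟩ := h.ne (pt y (φ + 3 + t))
        have := u3e t (by linarith) h4.le (u3b t (by linarith) h4) hf' hi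
        rw [mem_singleton_iff] at this
        exact this ▸ hi
      have he' : e ∈ T (pt y (φ + 3 + sSup S')) := by
        have h5 : sSup S' ∈ closure (Ioo (sSup S') s) := by
          rw [closure_Ioo hlt.ne]
          exact ⟨le_rfl, hlt.le⟩
        exact (closure_minimal (fun t ht => hee t ht.1 ht.2) (cl y 3 e)) h5
      exact s2 _ (by linarith) hlt.le he' hm'.1
    have hcr : r ∈ closure (Ioo r s) := by
      rw [closure_Ioo hrs.ne]
      exact ⟨le_rfl, hrs.le⟩
    have her3 : e ∈ T (pt y (φ + 3 + r)) :=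
      (closure_minimal (fun t ht => hG t ht.1 ht.2) (cl y 3 e)) hcr
    have hbr : b ∈ T (pt y (φ + 2 + r)) := by
      refine (closure_minimal (fun t ht => ?_) (cl y 2 b)) hcr
      obtain ⟨i, hi⟩ := h.ne (pt y (φ + 2 + t))
      have := u2b t ht.1 ht.2 hi
      rw [mem_singleton_iff] at this
      exact this ▸ hi
    have hbr3 : b ∉ T (pt y (φ + 3 + r)) := by
      intro hb
      refine h.not_sub (du r) (h33 r hr0 hrs.le) ((u2sub r hr0 hrs).trans ?_)
      rintro i (rfl | rfl)
      · exact hb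
      · exact her3
    by_cases hf : f ∈ T (pt y (φ + 3 + r))
    · exact s2 r hr0 hrs.le her3 hf
    · exact pure_off h (u3e r hr0 hrs.le hbr3 hf) (by rw [dist_comm]; exact du r) htS.1

end Vale.Agent.P032.H274
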