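import Vale.Agent.P032.H274.XCore

/-! Block X, row X-C: dead words of 7 links with certificates (generated). -/

namespace Vale.Agent.P032.H274

/-- dead words with certificates -/
def D7 : List (ℕ × List ℕ) := [
  (18658, [3088, 45461, 35864, 33816, 20504, 563, 691, 44088, 20536, 21560, 2128, 3408, 5456, 3153, 5201, 723, 36565, 35541, 45526, 22103]),
  (18659, [3088, 38293, 35864, 33816, 20504, 563, 691, 44088, 20536, 21560, 2128, 3408, 5456, 3153, 5201, 723, 36565, 35541, 45526, 22103]),
  (65314, [45461, 45080, 17464, 1104, 2256, 1105, 209, 595, 723, 38229, 44630, 21207]),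
  (65315, [38293, 45080, 17464, 1104, 2256, 1105, 209, 595, 723, 38229, 44630, 21207]),
  (93303, [4240, 18, 1555, 44564, 45461, 45333, 28824, 24728, 1715, 35000, 38358]),
  (93304, [160, 288, 161, 1571, 1699, 43556, 21158, 45479, 2216, 45256, 45540]),
  (93305, [160, 288, 161, 1571, 1699, 43556, 21158, 38311, 2216, 45256, 45540]),
  (93309, [18, 1683, 30228, 45461, 45333, 26776, 29848, 176, 1715, 35000, 38358]),
  (186613, [45333, 45208, 1587, 43192, 24760, 208, 464, 4560, 337, 4433, 1619, 1747, 36565, 35541, 45398, 30295]),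
  (186614, [38165, 45208, 1587, 43192, 24760, 208, 464, 4560, 337, 4433, 1619, 1747, 36565, 35541, 45398, 30295]),
  (205278, [1056, 3232, 5536, 289, 5409, 1441, 5537, 547, 675, 45476, 22052, 44582, 45351, 11304, 20520, 707, 45128, 45412]),
  (205279, [1056, 3232, 289, 1441, 547, 675, 45476, 44582, 43559, 11304, 45128, 45412]),
  (205280, [1056, 3232, 289, 1441, 547, 675, 45476, 44582, 35495, 11304, 45128, 45412]),
  (205284, [1056, 3232, 5536, 289, 5409, 1441, 5537, 547, 675, 45476, 22052, 44582, 38183, 11304, 20520, 707, 45128, 45412]),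
  (233269, [45333, 45208, 24760, 208, 464, 337, 1619, 1747, 36565, 45398, 30295]),
  (233270, [38165, 45208, 24760, 208, 464, 337, 1619, 1747, 36565, 45398, 30295])]

set_option maxRecDepth 100000 in
theorem ok_D7 : D7.all (okc 7) = true := by decide +kernel

end Vale.Agent.P032.H274
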