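import Vale.Agent.P032.H274.XCore

/-! Block X, row X-C: dead words of 8 links with certificates (generated). -/

namespace Vale.Agent.P032.H274

/-- dead words with certificates -/
def D8 : List (ℕ × List ℕ) := [
  (1652378, [2080, 5152, 2208, 1057, 161, 5537, 34, 675, 30244, 45348, 38181, 22054, 21159, 26664, 29736, 45224, 29864, 3264, 45508, 44614, 38343, 41160, 45414])]

set_option maxRecDepth 100000 in
theorem ok_D8 : D8.all (okc 8) = true := by decide +kernel

end Vale.Agent.P032.H274
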