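import Vale.Agent.P032.H274.XCore
import Vale.Agent.P032.H274.XTab
import Vale.Agent.P032.H274.XD3
import Vale.Agent.P032.H274.XD4a
import Vale.Agent.P032.H274.XD4b
import Vale.Agent.P032.H274.XD5
import Vale.Agent.P032.H274.XD6
import Vale.Agent.P032.H274.XD7
import Vale.Agent.P032.H274.XD8
import Vale.Agent.P032.H274.XSt

/-!
# Block X, row X-C: a bi-infinite chain of quasi-full two-pair points is pure

`LinCh l N`: the F2-linear facts (1)-(5) of #16260 along a chain `V_j`, `j : ℤ`, in roles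
(`0..5 = I,O,p,q,e,f`, see `XCore`). Main results:

* `ChW.pure` (windows of 8 links with states depending on the window) and `LinCh.pure`: all links are STAY K with the letter that was not dropped (`l j = 2`), or all are
  SWITCH K with that letter (`l j = 5`);
* `Win.state_stay`, `Win.state_switch` (window of six constant links, middle vertex 3), `LinCh.state_stay`,
  `LinCh.state_switch`: at every vertex the state is one of two explicit states.
-/

namespace Vale.Agent.P032.H274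

/-- the linear facts along a chain -/
structure LinCh (l : ℤ → ℕ) (N : ℤ → ℕ → ℕ → ℕ → ZMod 2) : Prop where
  lt : ∀ j, l j < 6
  symm : ∀ j t x y, N j t x y = N j t y x
  eul : ∀ j t x, t < 4 → x < 6 → t ≠ x →
    ((List.range 6).map fun y => if y = t ∨ y = x then 0 else N j t x y).sum = 0
  brd : ∀ j i x, i < 4 → x < 6 → x ≠ bp i → x ≠ bq i →
    N j (bp i) (bq i) x + N j (bq i) (bp i) x =
      if jmp (l (j - 1)) (l j) (bp i) (bq i) x then 1 else 0
  par : ∀ j, N j 0 4 5 + N j 1 4 5 + N j 2 4 5 + N j 3 4 5 = 1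
  zio : ∀ j x b, (x = 4 ∨ x = 5) → b < 2 → N j b (1 - b) x = 0
  zp : ∀ j a b c, tri a b c = true → nx (l j) a < 4 →
    N j (nx (l j) a) (nx (l j) b) (nx (l j) c) = 0
  zm : ∀ j a b c, tri a b c = true → bk (l (j - 1)) a < 4 →
    N j (bk (l (j - 1)) a) (bk (l (j - 1)) b) (bk (l (j - 1)) c) = 0
  zpp : ∀ j a b c, tri a b c = true → nx (l j) (nx (l (j + 1)) a) < 4 →
    N j (nx (l j) (nx (l (j + 1)) a)) (nx (l j) (nx (l (j + 1)) b)) (nx (l j) (nx (l (j + 1)) c)) = 0
  zmm : ∀ j a b c, tri a b c = true → bk (l (j - 1)) (bk (l (j - 2)) a) < 4 →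
    N j (bk (l (j - 1)) (bk (l (j - 2)) a)) (bk (l (j - 1)) (bk (l (j - 2)) b))
      (bk (l (j - 1)) (bk (l (j - 2)) c)) = 0
  glue : ∀ j a b c, a < 2 → b < 6 → c < 6 → a ≠ b → a ≠ c → b ≠ c →
    N j (nx (l j) a) (nx (l j) b) (nx (l j) c) =
      N (j + 2) (bk (l (j + 1)) a) (bk (l (j + 1)) b) (bk (l (j + 1)) c)

variable {l : ℤ → ℕ} {N : ℤ → ℕ → ℕ → ℕ → ZMod 2}

namespace LinCh

theorem win (H : LinCh l N) (a : ℤ) (n : ℕ) : Win n (fun i => l (a + i)) (fun j => N (a + j)) := by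
  have e1 : ∀ j : ℕ, 0 < j → (a + ((j - 1 : ℕ) : ℤ)) = a + j - 1 := by
    intro j hj
    push_cast [Nat.cast_sub (Nat.one_le_iff_ne_zero.2 hj.ne')]
    ring
  have e2 : ∀ j : ℕ, 2 ≤ j → (a + ((j - 2 : ℕ) : ℤ)) = a + j - 2 := by
    intro j hj
    push_cast [Nat.cast_sub hj]
    ring
  have e3 : ∀ j : ℕ, (a + ((j + 1 : ℕ) : ℤ)) = a + j + 1 := by
    intro j
    push_cast
    ring
  have e4 : ∀ j : ℕ, (a + ((j + 2 : ℕ) : ℤ)) = a + j + 2 := by
    intro j
    push_cast
    ring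
  refine ⟨?_, ?_, ?_, ?_, ?_, ?_, ?_, ?_, ?_, ?_⟩
  · exact fun j => H.symm _
  · exact fun j t x _ _ => H.eul _ t x
  · intro j i x h0 hn
    rw [e1 j h0]
    exact H.brd _ i x
  · exact fun j _ _ => H.par _
  · exact fun j x b _ _ => H.zio _ x b
  · exact fun j a b c _ _ => H.zp _ a b c
  · intro j b c d h0 hn
    rw [e1 j h0]
    exact H.zm _ b c d
  · intro j b c d h0 hn
    rw [e3 j]
    exact H.zpp _ b c d
  · intro j b c d h0 hn
    rw [e1 j (by omega), e2 j h0]
    exact H.zmm _ b c d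
  · intro j b c d h0 hn
    rw [e3 j, e4 j]
    exact H.glue _ b c d

end LinCh

/-- the window form: a bi-infinite word of links such that every window of 8 links carries states
(which may depend on the window) with the facts `Win` -/
structure ChW (l : ℤ → ℕ) : Prop where
  lt : ∀ j, l j < 6
  win : ∀ a : ℤ, ∃ N : ℕ → ℕ → ℕ → ℕ → ZMod 2, Win 8 (fun i => l (a + i)) N

theorem LinCh.chw (H : LinCh l N) : ChW l := ⟨H.lt, fun a => ⟨_, H.win a 8⟩⟩

theorem Win.mono {n m : ℕ} {w : ℕ → ℕ} {M : ℕ → ℕ → ℕ → ℕ → ZMod 2} (H : Win n w M) (h : m ≤ n) :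
    Win m w M where
  symm := H.symm
  eul := fun j t x h0 hm => H.eul j t x h0 (by omega)
  brd := fun j i x h0 hm => H.brd j i x h0 (by omega)
  par := fun j h0 hm => H.par j h0 (by omega)
  zio := fun j x b h0 hm => H.zio j x b h0 (by omega)
  zp := fun j a b c h0 hm => H.zp j a b c h0 (by omega)
  zm := fun j a b c h0 hm => H.zm j a b c h0 (by omega)
  zpp := fun j a b c h0 hm => H.zpp j a b c h0 (by omega)
  zmm := fun j a b c h0 hm => H.zmm j a b c h0 (by omega)
  glue := fun j a b c h0 hm => H.glue j a b c h0 (by omega)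

namespace ChW

/-- code of the word of `n` links starting at `a` -/
def cod (l : ℤ → ℕ) (a : ℤ) (n : ℕ) : ℕ := cd (fun i : ℕ => l (a + i)) n

theorem not_dead (H : ChW l) {n : ℕ} (hn : n ≤ 8) {D : List (ℕ × List ℕ)}
    (hD : D.all (okc n) = true) (a : ℤ) : cod l a n ∉ D.map Prod.fst := by
  intro h
  obtain ⟨e, he, h⟩ := List.mem_map.1 h
  obtain ⟨M, hM⟩ := H.win a
  exact not_mem_of_okc hn hD (hM.mono hn) (fun i => H.lt _) e he h

theorem step (H : ChW l) {n : ℕ} {A A' D : List ℕ} (h : stp n A (msk A) (msk D) (msk A') = true)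
    (hA : ∀ a, cod l a n ∈ A) (hD : ∀ a, cod l a (n + 1) ∉ D) (a : ℤ) : cod l a (n + 1) ∈ A' := by
  refine stp_sound h (fun i => H.lt _) (hA a) ?_ (hD a)
  have e : (fun i : ℕ => (fun i : ℕ => l (a + i)) (i + 1)) = fun i : ℕ => l (a + 1 + i) := by
    funext i
    show l (a + ((i + 1 : ℕ) : ℤ)) = l (a + 1 + i)
    congr 1
    push_cast
    ring
  rw [e]
  exact hA (a + 1)

set_option maxRecDepth 100000 in
theorem stp2 : stp 2 A2 (msk A2) (msk (D3.map Prod.fst)) (msk A3) = true := by decide +kernel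
set_option maxRecDepth 100000 in
theorem stp3 : stp 3 A3 (msk A3) (msk ((D4a ++ D4b).map Prod.fst)) (msk A4) = true := by decide +kernel
set_option maxRecDepth 100000 in
theorem stp4 : stp 4 A4 (msk A4) (msk (D5.map Prod.fst)) (msk A5) = true := by decide +kernel
set_option maxRecDepth 100000 in
theorem stp5 : stp 5 A5 (msk A5) (msk (D6.map Prod.fst)) (msk A6) = true := by decide +kernel
set_option maxRecDepth 100000 in
theorem stp6 : stp 6 A6 (msk A6) (msk (D7.map Prod.fst)) (msk A7) = true := by decide +kernel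

theorem ok_D4 : (D4a ++ D4b).all (okc 4) = true := by
  rw [List.all_append, ok_D4a, ok_D4b]
  rfl

theorem mem2 (H : ChW l) (a : ℤ) : cod l a 2 ∈ A2 := by
  have h : cod l a 2 < 6 ^ 2 := cd_lt (fun _ => H.lt _) 2
  have key : ∀ u < 6 ^ 2, u ∈ A2 := by decide +kernel
  exact key _ h

theorem mem6 (H : ChW l) (a : ℤ) : cod l a 6 ∈ A6 := by
  refine H.step stp5 (H.step stp4 (H.step stp3 (H.step stp2 H.mem2 ?_) ?_) ?_) ?_ a
  · exact H.not_dead (by norm_num) ok_D3
  · exact H.not_dead (by norm_num) ok_D4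
  · exact H.not_dead (by norm_num) ok_D5
  · exact H.not_dead (by norm_num) ok_D6

theorem mem7 (H : ChW l) (a : ℤ) : cod l a 7 ∈ A7 :=
  H.step stp6 H.mem6 (H.not_dead (by norm_num) ok_D7) a

theorem wd_cod (H : ChW l) (a : ℤ) {n i : ℕ} (hi : i < n) : wd (cod l a n) i = l (a + i) :=
  wd_cd (w := fun i : ℕ => l (a + i)) (fun _ => H.lt _) hi

theorem kf (H : ChW l) (j : ℤ) : l j = 2 ∨ l j = 5 := by
  have key : ∀ u ∈ A7, wd u 3 = 2 ∨ wd u 3 = 5 := by decide +kernel
  have h := key _ (H.mem7 (j - 3))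
  rw [H.wd_cod (j - 3) (by norm_num)] at h
  have e : j - 3 + ((3 : ℕ) : ℤ) = j := by push_cast; ring
  rwa [e] at h

/-- six links: constant or a window of the periodic word `TTWW` -/
theorem six (H : ChW l) (a : ℤ) : cod l a 6 ∈
    ([18662, 46655, 19418, 42116, 45899, 23201] : List ℕ) := by
  have key : ∀ u ∈ A6, (∀ i < 6, wd u i = 2 ∨ wd u i = 5) →
      u ∈ ([18662, 46655, 19418, 42116, 45899, 23201] : List ℕ) := by decide +kernel
  refine key _ (H.mem6 a) fun i hi => ?_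
  rw [H.wd_cod a hi]
  exact H.kf _

/-- the six words, digit by digit -/
theorem six_digits (u : ℕ) (hu : u ∈ ([18662, 46655, 19418, 42116, 45899, 23201] : List ℕ)) :
    (wd u 0 = wd u 1 ∧ wd u 1 = wd u 2 ∧ wd u 2 = wd u 3 ∧ wd u 3 = wd u 4 ∧ wd u 4 = wd u 5) ∨
    (wd u 0 = 2 ∧ wd u 1 = 2 ∧ wd u 2 = 5 ∧ wd u 3 = 5 ∧ wd u 4 = 2 ∧ wd u 5 = 2) ∨
    (wd u 0 = 2 ∧ wd u 1 = 5 ∧ wd u 2 = 5 ∧ wd u 3 = 2 ∧ wd u 4 = 2 ∧ wd u 5 = 5) ∨
    (wd u 0 = 5 ∧ wd u 1 = 5 ∧ wd u 2 = 2 ∧ wd u 3 = 2 ∧ wd u 4 = 5 ∧ wd u 5 = 5) ∨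
    (wd u 0 = 5 ∧ wd u 1 = 2 ∧ wd u 2 = 2 ∧ wd u 3 = 5 ∧ wd u 4 = 5 ∧ wd u 5 = 2) := by
  revert u
  decide +kernel

theorem six' (H : ChW l) (a : ℤ) :
    (l a = l (a + 1) ∧ l (a + 1) = l (a + 2) ∧ l (a + 2) = l (a + 3) ∧ l (a + 3) = l (a + 4) ∧
      l (a + 4) = l (a + 5)) ∨
    (l a = 2 ∧ l (a + 1) = 2 ∧ l (a + 2) = 5 ∧ l (a + 3) = 5 ∧ l (a + 4) = 2 ∧ l (a + 5) = 2) ∨
    (l a = 2 ∧ l (a + 1) = 5 ∧ l (a + 2) = 5 ∧ l (a + 3) = 2 ∧ l (a + 4) = 2 ∧ l (a + 5) = 5) ∨
    (l a = 5 ∧ l (a + 1) = 5 ∧ l (a + 2) = 2 ∧ l (a + 3) = 2 ∧ l (a + 4) = 5 ∧ l (a + 5) = 5) ∨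
    (l a = 5 ∧ l (a + 1) = 2 ∧ l (a + 2) = 2 ∧ l (a + 3) = 5 ∧ l (a + 4) = 5 ∧ l (a + 5) = 2) := by
  have h := six_digits _ (H.six a)
  rw [H.wd_cod a (i := 0) (by norm_num), H.wd_cod a (i := 1) (by norm_num),
    H.wd_cod a (i := 2) (by norm_num), H.wd_cod a (i := 3) (by norm_num),
    H.wd_cod a (i := 4) (by norm_num), H.wd_cod a (i := 5) (by norm_num)] at h
  push_cast at h
  simpa only [add_zero] using h

theorem no25 (H : ChW l) (a : ℤ) (h1 : l a = 2) (h2 : l (a + 1) = 5) : False := by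
  have e1 : l (a - 1) = 2 ∧ l (a + 2) = 5 ∧ l (a + 3) = 2 ∧ l (a + 4) = 2 := by
    have h := H.six' (a - 1)
    rw [show a - 1 + 1 = a by ring, show a - 1 + 2 = a + 1 by ring, show a - 1 + 3 = a + 2 by ring,
      show a - 1 + 4 = a + 3 by ring, show a - 1 + 5 = a + 4 by ring] at h
    omega
  have e2 : l (a + 5) = 5 ∧ l (a + 6) = 5 := by
    have h := H.six' (a + 1)
    rw [show a + 1 + 1 = a + 2 by ring, show a + 1 + 2 = a + 3 by ring, show a + 1 + 3 = a + 4 by ring,
      show a + 1 + 4 = a + 5 by ring, show a + 1 + 5 = a + 6 by ring] at h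
    omega
  have hc : cod l (a - 1) 8 = 1652378 := by
    unfold cod
    simp only [cd]
    push_cast
    rw [show a - 1 + 0 = a - 1 by ring, show a - 1 + 1 = a by ring, show a - 1 + 2 = a + 1 by ring,
      show a - 1 + 3 = a + 2 by ring, show a - 1 + 4 = a + 3 by ring, show a - 1 + 5 = a + 4 by ring,
      show a - 1 + 6 = a + 5 by ring, show a - 1 + 7 = a + 6 by ring, e1.1, h1, h2, e1.2.1, e1.2.2.1,
      e1.2.2.2, e2.1, e2.2]
  refine H.not_dead (n := 8) (by norm_num) ok_D8 (a - 1) ?_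
  rw [hc]
  decide

theorem no52 (H : ChW l) (a : ℤ) (h1 : l a = 5) (h2 : l (a + 1) = 2) : False := by
  have h := H.six' a
  have e : l (a + 2) = 2 ∧ l (a + 3) = 5 := by omega
  refine H.no25 (a + 2) e.1 ?_
  rw [show a + 2 + 1 = a + 3 by ring]
  exact e.2

/-- **Row X-C.** All links are STAY K with the letter that was not dropped, or all are SWITCH K with
that letter. -/
theorem pure (H : ChW l) : (∀ j, l j = 2) ∨ (∀ j, l j = 5) := by
  have hs : ∀ j, l (j + 1) = l j := by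
    intro j
    rcases H.kf j with h | h <;> rcases H.kf (j + 1) with h' | h'
    · rw [h, h']
    · exact (H.no25 j h h').elim
    · exact (H.no52 j h h').elim
    · rw [h, h']
  have hc : ∀ j, l j = l 0 := by
    intro j
    induction j using Int.induction_on with
    | zero => rfl
    | succ i ih => rw [hs, ih]
    | pred i ih =>
      have := hs (-(i : ℤ) - 1)
      rw [sub_add_cancel] at this
      rw [← this, ih]
  rcases H.kf 0 with h | h
  · exact Or.inl fun j => by rw [hc, h]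
  · exact Or.inr fun j => by rw [hc, h]

theorem ev_tgt {M : ℕ → ℕ → ℕ → ℕ → ZMod 2} (hs : ∀ j t x y, M j t x y = M j t y x)
    {b s0 s1 t x y : ℕ} (hb : b < 6) (ht : t < 6) (hx : x < 6) (hy : y < 6)
    (h : ev M (tgt b s0 s1 t x y) = 0) :
    M 3 t x y = (if s0.testBit (idx 0 t x y) = true then 1 else 0) +
      (if (s0.testBit (idx 0 t x y) != s1.testBit (idx 0 t x y)) = true then M 3 b 4 5 else 0) := by
  unfold tgt at h
  rw [ev_xor, ev_xor, ev_vb hs (by norm_num) ht hx hy] at h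
  have e1 : ev M (if (s0.testBit (idx 0 t x y) != s1.testBit (idx 0 t x y)) = true
      then vb 3 b 4 5 else 0) =
      if (s0.testBit (idx 0 t x y) != s1.testBit (idx 0 t x y)) = true then M 3 b 4 5 else 0 := by
    split_ifs
    · exact ev_vb hs (by norm_num) hb (by norm_num) (by norm_num)
    · exact ev_zero M
  have e2 : ev M (if s0.testBit (idx 0 t x y) = true then 1 else 0) =
      if s0.testBit (idx 0 t x y) = true then 1 else 0 := by
    split_ifs
    · exact ev_one M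
    · exact ev_zero M
  rw [e1, e2] at h
  have key : ∀ p q r : ZMod 2, p + (q + r) = 0 → p = r + q := by decide
  exact key _ _ _ h

end ChW

/-- the two states at the middle vertex of a constant window of six links -/
theorem Win.state_aux {w : ℕ → ℕ} {M : ℕ → ℕ → ℕ → ℕ → ZMod 2} (H : Win 6 w M)
    {L b s0 s1 : ℕ} {S : List (ℕ × ℕ × ℕ × List ℕ)} (hb : b < 4) (hL6 : L < 6)
    (hL : ∀ i < 6, w i = L) (hS : S.all (okS L b s0 s1) = true) (hc : cov b S = true)
    (hb0 : s0.testBit (idx 0 b 4 5) = false) (hb1 : s1.testBit (idx 0 b 4 5) = true) :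
    (∀ t x y, t < 4 → x < 6 → y < 6 → x < y → t ≠ x → t ≠ y →
      M 3 t x y = if s0.testBit (idx 0 t x y) = true then 1 else 0) ∨
    (∀ t x y, t < 4 → x < 6 → y < 6 → x < y → t ≠ x → t ≠ y →
      M 3 t x y = if s1.testBit (idx 0 t x y) = true then 1 else 0) := by
  have W : Win 6 (fun _ => L) M := H.congr fun i hi => (hL i hi).symm
  have key : ∀ t x y, t < 4 → x < 6 → y < 6 → x < y → t ≠ x → t ≠ y →
      M 3 t x y = (if s0.testBit (idx 0 t x y) = true then 1 else 0) +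
        (if (s0.testBit (idx 0 t x y) != s1.testBit (idx 0 t x y)) = true then M 3 b 4 5 else 0) := by
    intro t x y ht hx hy hxy htx hty
    by_cases hbb : t = b ∧ x = 4 ∧ y = 5
    · obtain ⟨rfl, rfl, rfl⟩ := hbb
      rw [hb0, hb1]
      simp
    · have c1 := List.all_eq_true.1 hc t (List.mem_range.2 ht)
      have c2 := List.all_eq_true.1 c1 x (List.mem_range.2 hx)
      have c3 := List.all_eq_true.1 c2 y (List.mem_range.2 hy)
      have hmem : ∃ e ∈ S, e.1 = t ∧ e.2.1 = x ∧ e.2.2.1 = y := by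
        simp only [Bool.or_eq_true, Bool.not_eq_true', decide_eq_false_iff_not, beq_iff_eq,
          Bool.and_eq_true, List.any_eq_true] at c3
        rcases c3 with (((c | c) | c) | c) | c
        · exact absurd hxy c
        · exact absurd c htx
        · exact absurd c hty
        · exact absurd ⟨c.1.1, c.1.2, c.2⟩ hbb
        · obtain ⟨e, he, h⟩ := c
          exact ⟨e, he, h.1.1, h.1.2, h.2⟩
      obtain ⟨e, he, rfl, rfl, rfl⟩ := hmem
      have o := List.all_eq_true.1 hS e he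
      simp only [okS, beq_iff_eq] at o
      have v := ev_certm W (by norm_num) (fun i _ => hL6) e.2.2.2
      rw [o] at v
      exact ChW.ev_tgt W.symm (by omega) (by omega) hx hy v
  have hz : M 3 b 4 5 = 0 ∨ M 3 b 4 5 = 1 := by
    have : ∀ z : ZMod 2, z = 0 ∨ z = 1 := by decide
    exact this _
  rcases hz with hz | hz
  · left
    intro t x y ht hx hy hxy htx hty
    rw [key t x y ht hx hy hxy htx hty, hz]
    simp
  · right
    intro t x y ht hx hy hxy htx hty
    rw [key t x y ht hx hy hxy htx hty, hz]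
    have h2 : (1 : ZMod 2) + 1 = 0 := by decide
    cases s0.testBit (idx 0 t x y) <;> cases s1.testBit (idx 0 t x y) <;> simp [h2]

/-- states of a STAY window -/
theorem Win.state_stay {w : ℕ → ℕ} {M : ℕ → ℕ → ℕ → ℕ → ZMod 2} (H : Win 6 w M)
    (h : ∀ i < 6, w i = 2) :
    (∀ t x y, t < 4 → x < 6 → y < 6 → x < y → t ≠ x → t ≠ y →
      M 3 t x y = if sT0.testBit (idx 0 t x y) = true then 1 else 0) ∨
    (∀ t x y, t < 4 → x < 6 → y < 6 → x < y → t ≠ x → t ≠ y →
      M 3 t x y = if sT1.testBit (idx 0 t x y) = true then 1 else 0) :=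
  H.state_aux (by norm_num) (by norm_num) h ok_LT cov_LT (by decide +kernel) (by decide +kernel)

/-- states of a SWITCH window -/
theorem Win.state_switch {w : ℕ → ℕ} {M : ℕ → ℕ → ℕ → ℕ → ZMod 2} (H : Win 6 w M)
    (h : ∀ i < 6, w i = 5) :
    (∀ t x y, t < 4 → x < 6 → y < 6 → x < y → t ≠ x → t ≠ y →
      M 3 t x y = if sW0.testBit (idx 0 t x y) = true then 1 else 0) ∨
    (∀ t x y, t < 4 → x < 6 → y < 6 → x < y → t ≠ x → t ≠ y →
      M 3 t x y = if sW1.testBit (idx 0 t x y) = true then 1 else 0) :=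
  H.state_aux (by norm_num) (by norm_num) h ok_LW cov_LW (by decide +kernel) (by decide +kernel)

namespace LinCh

theorem pure (H : LinCh l N) : (∀ j, l j = 2) ∨ (∀ j, l j = 5) := H.chw.pure

theorem at_three (N : ℤ → ℕ → ℕ → ℕ → ZMod 2) (j : ℤ) (t x y : ℕ) :
    N (j - 3 + ((3 : ℕ) : ℤ)) t x y = N j t x y := by
  congr 1
  push_cast
  ring

/-- states of the all-STAY chain -/
theorem state_stay (H : LinCh l N) (h : ∀ j, l j = 2) (j : ℤ) :
    (∀ t x y, t < 4 → x < 6 → y < 6 → x < y → t ≠ x → t ≠ y →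
      N j t x y = if sT0.testBit (idx 0 t x y) = true then 1 else 0) ∨
    (∀ t x y, t < 4 → x < 6 → y < 6 → x < y → t ≠ x → t ≠ y →
      N j t x y = if sT1.testBit (idx 0 t x y) = true then 1 else 0) := by
  simpa only [at_three] using (H.win (j - 3) 6).state_stay fun i _ => h _

/-- states of the all-SWITCH chain -/
theorem state_switch (H : LinCh l N) (h : ∀ j, l j = 5) (j : ℤ) :
    (∀ t x y, t < 4 → x < 6 → y < 6 → x < y → t ≠ x → t ≠ y →
      N j t x y = if sW0.testBit (idx 0 t x y) = true then 1 else 0) ∨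
    (∀ t x y, t < 4 → x < 6 → y < 6 → x < y → t ≠ x → t ≠ y →
      N j t x y = if sW1.testBit (idx 0 t x y) = true then 1 else 0) := by
  simpa only [at_three] using (H.win (j - 3) 6).state_switch fun i _ => h _

end LinCh

end Vale.Agent.P032.H274
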