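import Vale.Agent.P032.H274.XC

/-!
# Block X, row X-C: the interface in colours

`ColWin name lam a n`: the F2-linear facts at the inner vertices of the window `V_a, .., V_(a+n)` of a
chain, in colours: `lam j t x y` = parity of the faces `{t,x,y}` seen from the colour `t` at `V_j`,
`name j r` = colour of the role `r` at `V_j` (roles `0..5` = `I,O,p,q,e,f`).
-/

namespace Vale.Agent.P032.H274

/-- the jump of the border `p | q` at `x` caused by a neighbour with the names `μ` -/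
def ArcJ (μ : Fin 6 → Fin 6) (p q x : Fin 6) : Prop :=
  ((p = μ 0 ∧ q = μ 1) ∨ (p = μ 1 ∧ q = μ 0)) ∧ (x = μ 2 ∨ x = μ 3)

instance (μ : Fin 6 → Fin 6) (p q x : Fin 6) : Decidable (ArcJ μ p q x) := by
  unfold ArcJ
  infer_instance

/-- the linear facts in colours at the inner vertices of the window `V_a, .., V_(a+n)` -/
structure ColWin (name : ℤ → Fin 6 → Fin 6) (lam : ℤ → Fin 6 → Fin 6 → Fin 6 → ZMod 2) (a : ℤ)
    (n : ℕ) : Prop where
  inj : ∀ j, Function.Injective (name j)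
  symm : ∀ j t x y, lam j t x y = lam j t y x
  eul : ∀ j, a < j → j < a + n → ∀ r x : Fin 6, r < 4 → x ≠ name j r →
    ∑ y ∈ Finset.univ.filter (fun y => y ≠ name j r ∧ y ≠ x), lam j (name j r) x y = 0
  brd : ∀ j, a < j → j < a + n → ∀ p q : Fin 6,
    ((p = name j 0 ∧ q = name j 2) ∨ (p = name j 2 ∧ q = name j 1) ∨ (p = name j 1 ∧ q = name j 3) ∨
      (p = name j 3 ∧ q = name j 0)) → ∀ x, x ≠ p → x ≠ q →
    lam j p q x + lam j q p x = if ArcJ (name (j + 1)) p q x ∨ ArcJ (name (j - 1)) p q x then 1 else 0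
  par : ∀ j, a < j → j < a + n →
    lam j (name j 0) (name j 4) (name j 5) + lam j (name j 1) (name j 4) (name j 5) +
      lam j (name j 2) (name j 4) (name j 5) + lam j (name j 3) (name j 4) (name j 5) = 1
  zio : ∀ j, a < j → j < a + n → ∀ x, (x = name j 4 ∨ x = name j 5) →
    lam j (name j 0) (name j 1) x = 0 ∧ lam j (name j 1) (name j 0) x = 0
  far : ∀ j k, a < j → j < a + n → a ≤ k → k ≤ a + n →
    (k = j + 1 ∨ k = j - 1 ∨ k = j + 2 ∨ k = j - 2) → ∀ r t x y : Fin 6, (r = 2 ∨ r = 3) →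
    ({t, x, y} : Finset (Fin 6)) = {name k r, name k 4, name k 5} → (∃ s < 4, t = name j s) →
    lam j t x y = 0
  glue : ∀ j, a < j → j + 2 < a + n → ∀ t x y, (t = name (j + 1) 0 ∨ t = name (j + 1) 1) →
    x ≠ t → y ≠ t → x ≠ y → lam j t x y = lam (j + 2) t x y

/-- number -> role -/
def ro (r : ℕ) : Fin 6 := ⟨r % 6, Nat.mod_lt _ (by norm_num)⟩

/-- the roles of the next vertex -/
def nxF : Fin 6 → Fin 6 → Fin 6 := ![![0, 2, 3, 1, 4, 5], ![0, 2, 4, 1, 3, 5], ![0, 2, 5, 1, 3, 4],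
  ![3, 1, 0, 2, 4, 5], ![3, 1, 0, 4, 2, 5], ![3, 1, 0, 5, 2, 4]]

theorem nxF_ro : ∀ l : Fin 6, ∀ r < 6, nxF l (ro r) = ro (nx l r) := by decide
theorem nxF_bk : ∀ l : Fin 6, ∀ r < 6, nxF l (ro (bk l r)) = ro r := by decide
theorem ro_inj : ∀ r < 6, ∀ s < 6, ro r = ro s → r = s := by decide

variable {name : ℤ → Fin 6 → Fin 6} {lam : ℤ → Fin 6 → Fin 6 → Fin 6 → ZMod 2} {a : ℤ} {n : ℕ}
  {l : ℤ → Fin 6}

/-- names of the next vertex -/
theorem name_nx (nm : ∀ j r, name (j + 1) r = name j (nxF (l j) r)) (j : ℤ) {r : ℕ} (hr : r < 6) :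
    name j (ro (nx (l j) r)) = name (j + 1) (ro r) := by
  rw [nm, nxF_ro _ _ hr]

/-- names of the previous vertex -/
theorem name_bk (nm : ∀ j r, name (j + 1) r = name j (nxF (l j) r)) (j : ℤ) {r : ℕ} (hr : r < 6) :
    name (j + 1) (ro (bk (l j) r)) = name j (ro r) := by
  rw [nm, nxF_bk _ _ hr]

theorem name_bk' (nm : ∀ j r, name (j + 1) r = name j (nxF (l j) r)) (j : ℤ) {r : ℕ} (hr : r < 6) :
    name j (ro (bk (l (j - 1)) r)) = name (j - 1) (ro r) := by
  have h := name_bk nm (j - 1) hr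
  rwa [sub_add_cancel] at h

theorem sum_six (g : ℕ → ZMod 2) : ((List.range 6).map g).sum = ∑ y : Fin 6, g y.val := by
  simp [Fin.sum_univ_six, List.range_succ, add_assoc]

theorem ro_val (y : Fin 6) : ro y.val = y := by
  revert y
  decide

theorem ColWin.eul' (H : ColWin name lam a n) {j : ℤ} (h1 : a < j) (h2 : j < a + n) {t x : ℕ}
    (ht : t < 4) (hx : x < 6) (htx : t ≠ x) :
    ((List.range 6).map fun y => if y = t ∨ y = x then 0 else
      lam j (name j (ro t)) (name j (ro x)) (name j (ro y))).sum = 0 := by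
  rw [sum_six]
  have ht6 : t < 6 := by omega
  have e := H.eul j h1 h2 (ro t) (name j (ro x)) (by
    show (ro t).val < 4
    simp only [ro]
    rw [Nat.mod_eq_of_lt ht6]
    exact ht) (fun h => htx (ro_inj t ht6 x hx (H.inj j h).symm))
  rw [Finset.sum_filter] at e
  have hb : Function.Bijective (name j) := Finite.injective_iff_bijective.1 (H.inj j)
  refine Eq.trans ?_ ((Function.Bijective.sum_comp hb (fun y =>
    if y ≠ name j (ro t) ∧ y ≠ name j (ro x) then lam j (name j (ro t)) (name j (ro x)) y else 0)).trans e)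
  refine Finset.sum_congr rfl fun y _ => ?_
  have k1 : (name j y ≠ name j (ro t) ∧ name j y ≠ name j (ro x)) ↔ ¬ (y.val = t ∨ y.val = x) := by
    rw [not_or]
    refine and_congr (not_congr ⟨fun h => ?_, fun h => ?_⟩) (not_congr ⟨fun h => ?_, fun h => ?_⟩)
    · rw [H.inj j h]
      simp only [ro]
      exact Nat.mod_eq_of_lt ht6
    · rw [← h, ro_val]
    · rw [H.inj j h]
      simp only [ro]
      exact Nat.mod_eq_of_lt hx
    · rw [← h, ro_val]
  by_cases hy : y.val = t ∨ y.val = x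
  · rw [if_pos hy, if_neg (fun h => k1.1 h hy)]
  · rw [if_neg hy, if_pos (k1.2 hy), ro_val]

theorem arcJ_iff {μ ν : Fin 6 → Fin 6} (hν : Function.Injective ν) {g : ℕ → ℕ}
    (hg : ∀ r < 6, g r < 6) (h : ∀ r < 6, ν (ro (g r)) = μ (ro r)) {p q x : ℕ} (hp : p < 6) (hq : q < 6)
    (hx : x < 6) : ArcJ μ (ν (ro p)) (ν (ro q)) (ν (ro x)) ↔
      (((p = g 0 ∧ q = g 1) ∨ (p = g 1 ∧ q = g 0)) ∧ (x = g 2 ∨ x = g 3)) := by
  have key : ∀ s < 6, ∀ r < 6, (ν (ro s) = μ (ro r) ↔ s = g r) := by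
    intro s hs r hr
    rw [← h r hr]
    constructor
    · intro e
      exact ro_inj _ hs _ (hg r hr) (hν e)
    · rintro rfl
      rfl
  have m0 : μ 0 = μ (ro 0) := rfl
  have m1 : μ 1 = μ (ro 1) := rfl
  have m2 : μ 2 = μ (ro 2) := rfl
  have m3 : μ 3 = μ (ro 3) := rfl
  unfold ArcJ
  rw [m0, m1, m2, m3, key p hp 0 (by norm_num), key q hq 1 (by norm_num), key p hp 1 (by norm_num),
    key q hq 0 (by norm_num), key x hx 2 (by norm_num), key x hx 3 (by norm_num)]

theorem jmp_iff (lm lp p q x : ℕ) : jmp lm lp p q x = true ↔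
    ((((p = nx lp 0 ∧ q = nx lp 1) ∨ (p = nx lp 1 ∧ q = nx lp 0)) ∧ (x = nx lp 2 ∨ x = nx lp 3)) ∨
    (((p = bk lm 0 ∧ q = bk lm 1) ∨ (p = bk lm 1 ∧ q = bk lm 0)) ∧ (x = bk lm 2 ∨ x = bk lm 3))) := by
  simp only [jmp, Bool.or_eq_true, Bool.and_eq_true, beq_iff_eq]

theorem tri_cases {a b c : ℕ} (h : tri a b c = true) : ∃ r, (r = 2 ∨ r = 3) ∧
    ((a = r ∧ b = 4 ∧ c = 5) ∨ (a = r ∧ b = 5 ∧ c = 4) ∨ (a = 4 ∧ b = r ∧ c = 5) ∨
      (a = 5 ∧ b = r ∧ c = 4) ∨ (a = 4 ∧ b = 5 ∧ c = r) ∨ (a = 5 ∧ b = 4 ∧ c = r)) := by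
  simp only [tri, Bool.and_eq_true, decide_eq_true_eq, bne_iff_ne] at h
  have : a = 2 ∨ a = 3 ∨ a = 4 ∨ a = 5 := by omega
  rcases this with rfl | rfl | rfl | rfl
  · refine ⟨2, Or.inl rfl, ?_⟩
    omega
  · refine ⟨3, Or.inr rfl, ?_⟩
    omega
  · by_cases hb : b = 5
    · refine ⟨c, by omega, ?_⟩
      omega
    · refine ⟨b, by omega, ?_⟩
      omega
  · by_cases hb : b = 4
    · refine ⟨c, by omega, ?_⟩
      omega
    · refine ⟨b, by omega, ?_⟩
      omega

/-- the zero facts in roles -/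
theorem ColWin.far' (H : ColWin name lam a n) {j k : ℤ} (h1 : a < j) (h2 : j < a + n) (h3 : a ≤ k)
    (h4 : k ≤ a + n) (h5 : k = j + 1 ∨ k = j - 1 ∨ k = j + 2 ∨ k = j - 2) {g : ℕ → ℕ}
    (h : ∀ r < 6, name j (ro (g r)) = name k (ro r)) {x y z : ℕ} (ht : tri x y z = true)
    (hx : g x < 4) :
    lam j (name j (ro (g x))) (name j (ro (g y))) (name j (ro (g z))) = 0 := by
  obtain ⟨r, hr, hh⟩ := tri_cases ht
  have e4 : name k (ro 4) = name k 4 := rfl
  have e5 : name k (ro 5) = name k 5 := rfl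
  have key : ∀ t u v : Fin 6, ({t, u, v} : Finset (Fin 6)) = {name k (ro r), name k 4, name k 5} →
      (∃ s < 4, t = name j s) → lam j t u v = 0 := by
    intro t u v htuv hs
    refine H.far j k h1 h2 h3 h4 h5 (ro r) t u v ?_ htuv hs
    rcases hr with rfl | rfl
    · exact Or.inl rfl
    · exact Or.inr rfl
  refine key _ _ _ ?_ ⟨ro (g x), ?_, rfl⟩
  · rcases hh with ⟨rfl, rfl, rfl⟩ | ⟨rfl, rfl, rfl⟩ | ⟨rfl, rfl, rfl⟩ | ⟨rfl, rfl, rfl⟩ |
      ⟨rfl, rfl, rfl⟩ | ⟨rfl, rfl, rfl⟩ <;>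
      (rw [h _ (by omega), h _ (by omega), h _ (by omega), e4, e5]
       try (ext i; simp only [Finset.mem_insert, Finset.mem_singleton]; tauto))
  · show (ro (g x)).val < 4
    simp only [ro]
    rw [Nat.mod_eq_of_lt (by omega)]
    exact hx

theorem ColWin.win (H : ColWin name lam a n) (nm : ∀ j r, name (j + 1) r = name j (nxF (l j) r)) :
    Win n (fun i => (l (a + i)).val)
      (fun i t x y => lam (a + i) (name (a + i) (ro t)) (name (a + i) (ro x)) (name (a + i) (ro y))) := by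
  have e1 : ∀ j : ℕ, 0 < j → (a + ((j - 1 : ℕ) : ℤ)) = a + j - 1 := by
    intro j hj
    push_cast [Nat.cast_sub (Nat.one_le_iff_ne_zero.2 hj.ne')]
    ring
  have e2 : ∀ j : ℕ, 2 ≤ j → (a + ((j - 2 : ℕ) : ℤ)) = a + j - 2 := by
    intro j hj
    push_cast [Nat.cast_sub hj]
    ring
  have e3 : ∀ j : ℕ, (a + ((j + 1 : ℕ) : ℤ)) = a + j + 1 := by
    intro j
    push_cast
    ring
  have e4 : ∀ j : ℕ, (a + ((j + 2 : ℕ) : ℤ)) = a + j + 2 := by
    intro j
    push_cast
    ring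
  have hl : ∀ j, (l j).val < 6 := fun j => (l j).isLt
  refine ⟨?_, ?_, ?_, ?_, ?_, ?_, ?_, ?_, ?_, ?_⟩
  · exact fun j t x y => H.symm _ _ _ _
  · intro j t x h0 hn ht hx htx
    exact H.eul' (by omega) (by omega) ht hx htx
  · intro j i x h0 hn hi hx hp hq
    have hp6 : bp i < 6 := by have := bp_lt i hi; omega
    have hq6 : bq i < 6 := by have := bq_lt i hi; omega
    have hb := H.brd (a + j) (by omega) (by omega) (name (a + j) (ro (bp i))) (name (a + j) (ro (bq i)))
      (by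
        have : i = 0 ∨ i = 1 ∨ i = 2 ∨ i = 3 := by omega
        rcases this with rfl | rfl | rfl | rfl
        · exact Or.inl ⟨rfl, rfl⟩
        · exact Or.inr (Or.inl ⟨rfl, rfl⟩)
        · exact Or.inr (Or.inr (Or.inl ⟨rfl, rfl⟩))
        · exact Or.inr (Or.inr (Or.inr ⟨rfl, rfl⟩))) (name (a + j) (ro x))
      (fun h => hp (ro_inj _ hx _ hp6 (H.inj _ h))) (fun h => hq (ro_inj _ hx _ hq6 (H.inj _ h)))
    have c1 := arcJ_iff (μ := name (a + j + 1)) (ν := name (a + j)) (H.inj _)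
      (g := fun r => nx (l (a + j)) r) (fun r hr => nx_lt _ (hl _) _ hr)
      (fun r hr => name_nx nm (a + j) hr) hp6 hq6 hx
    have c2 := arcJ_iff (μ := name (a + j - 1)) (ν := name (a + j)) (H.inj _)
      (g := fun r => bk (l (a + j - 1)) r) (fun r hr => bk_lt _ (hl _) _ hr)
      (fun r hr => name_bk' nm (a + j) hr) hp6 hq6 hx
    rw [e1 j h0]
    refine hb.trans ?_
    refine if_congr ?_ rfl rfl
    rw [jmp_iff, c1, c2]
  · intro j h0 hn
    exact H.par (a + j) (by omega) (by omega)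
  · intro j x b h0 hn hx hb
    have hz := H.zio (a + j) (by omega) (by omega) (name (a + j) (ro x)) (by
      rcases hx with rfl | rfl
      · exact Or.inl rfl
      · exact Or.inr rfl)
    have : b = 0 ∨ b = 1 := by omega
    rcases this with rfl | rfl
    · exact hz.1
    · exact hz.2
  · intro j b c d h0 hn ht h4
    exact H.far' (j := a + j) (k := a + j + 1) (by omega) (by omega) (by omega) (by omega)
      (Or.inl rfl) (g := fun r => nx (l (a + j)) r) (fun r hr => name_nx nm _ hr) ht h4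
  · intro j b c d h0 hn ht h4
    rw [e1 j h0] at h4 ⊢
    exact H.far' (j := a + j) (k := a + j - 1) (by omega) (by omega) (by omega) (by omega)
      (Or.inr (Or.inl rfl)) (g := fun r => bk (l (a + j - 1)) r) (fun r hr => name_bk' nm _ hr) ht h4
  · intro j b c d h0 hn ht h4
    rw [e3 j] at h4 ⊢
    refine H.far' (j := a + j) (k := a + j + 2) (by omega) (by omega) (by omega) (by omega)
      (Or.inr (Or.inr (Or.inl rfl))) (g := fun r => nx (l (a + j)) (nx (l (a + j + 1)) r))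
      (fun r hr => ?_) ht h4
    rw [name_nx nm _ (nx_lt _ (hl _) _ hr), name_nx nm _ hr]
    congr 1
    ring
  · intro j b c d h0 hn ht h4
    rw [e1 j (by omega), e2 j h0] at h4 ⊢
    refine H.far' (j := a + j) (k := a + j - 2) (by omega) (by omega) (by omega) (by omega)
      (Or.inr (Or.inr (Or.inr rfl))) (g := fun r => bk (l (a + j - 1)) (bk (l (a + j - 2)) r))
      (fun r hr => ?_) ht h4
    rw [name_bk' nm _ (bk_lt _ (hl _) _ hr)]
    have h := name_bk' nm (a + j - 1) hr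
    rw [show a + (j : ℤ) - 1 - 1 = a + j - 2 by ring] at h
    exact h
  · intro j b c d h0 hn hb hc hd hbc hbd hcd
    rw [e3 j, e4 j]
    have k1 : ∀ r < 6, name (a + j) (ro (nx (l (a + j)) r)) = name (a + j + 1) (ro r) :=
      fun r hr => name_nx nm _ hr
    have k2 : ∀ r < 6, name (a + j + 2) (ro (bk (l (a + j + 1)) r)) = name (a + j + 1) (ro r) := by
      intro r hr
      have h := name_bk nm (a + j + 1) hr
      rwa [show a + (j : ℤ) + 1 + 1 = a + j + 2 by ring] at h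
    rw [k1 b (by omega), k1 c hc, k1 d hd, k2 b (by omega), k2 c hc, k2 d hd]
    refine H.glue (a + j) (by omega) (by omega) _ _ _ ?_ ?_ ?_ ?_
    · have : b = 0 ∨ b = 1 := by omega
      rcases this with rfl | rfl
      · exact Or.inl rfl
      · exact Or.inr rfl
    · exact fun h => hbc (ro_inj _ (by omega) _ hc (H.inj _ h).symm)
    · exact fun h => hbd (ro_inj _ (by omega) _ hd (H.inj _ h).symm)
    · exact fun h => hcd (ro_inj _ hc _ hd (H.inj _ h))

/-- **Row X-C in colours**: if every window of 8 links carries a state with the linear facts, then all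
links are STAY K (with the letter that was not just dropped) or all are SWITCH K. -/
theorem chain274 (nm : ∀ j r, name (j + 1) r = name j (nxF (l j) r))
    (H : ∀ a, ∃ lam, ColWin name lam a 8) : (∀ j, l j = 2) ∨ (∀ j, l j = 5) := by
  have h : ChW (fun j => (l j).val) := by
    refine ⟨fun j => (l j).isLt, fun a => ?_⟩
    obtain ⟨lam, hl⟩ := H a
    exact ⟨_, hl.win nm⟩
  rcases h.pure with h | h
  · exact Or.inl fun j => Fin.ext (h j)
  · exact Or.inr fun j => Fin.ext (h j)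

end Vale.Agent.P032.H274
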