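import Mathlib

/-!
# Block X, row X-C: the finite part (certificate checker)

Roles at a chain vertex `V_j`: `0 = I`, `1 = O` (own pair, inner / outer colour of the connecting arc),
`2 = p`, `3 = q` (the other pair; cyclic order `I, p, O, q` at `V_j`), `4 = e`, `5 = f` (the free colours):
this is the order `a, b, m, n, e, f` of `QF` (H961).
Link between `V_j` and `V_(j+1)`: `l < 6`, `l = 3 * kind + letter`; kind `0` = STAY, `1` = SWITCH;
letter `0` = J, `1` = K with new colour `e`, `2` = K with new colour `f`.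
`nx l r` = the role at `V_j` of the colour which has role `r` at `V_(j+1)`; `bk l` is the inverse.
STAY: `(I,O,p,q)` at `V_(j+1)` is `(I, p, g, O)`, SWITCH: `(q, O, I, g)`; for a K link the dropped colour
becomes the new `e`. Table (role `r` of `V_(j+1)` is role `nx l r` of `V_j`):
`l=0: 0 2 3 1 4 5`, `l=1: 0 2 4 1 3 5`, `l=2: 0 2 5 1 3 4`, `l=3: 3 1 0 2 4 5`, `l=4: 3 1 0 4 2 5`,
`l=5: 3 1 0 5 2 4`.
-/

namespace Vale.Agent.P032.H274

/-- table of `nx` -/
def nxT : ℕ := 0x8a82ea80bb102e3350acc42c2d0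
/-- table of `bk` -/
def bkT : ℕ := 0x7442ab10ab03295858aa162c458
/-- role at `V_j` of role `r` of `V_(j+1)` -/
def nx (l r : ℕ) : ℕ := nxT / 2 ^ (18 * l + 3 * r) % 8
/-- role at `V_(j+1)` of role `r` of `V_j` -/
def bk (l r : ℕ) : ℕ := bkT / 2 ^ (18 * l + 3 * r) % 8
/-- first colour of the `i`-th border at `V_j`: borders `Ip, pO, Oq, qI` -/
def bp (i : ℕ) : ℕ := 0x650 / 2 ^ (3 * i) % 8
/-- second colour of the `i`-th border at `V_j` -/
def bq (i : ℕ) : ℕ := 0xca / 2 ^ (3 * i) % 8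

example : (List.range 6).map (fun l => (List.range 6).map (nx l)) =
    [[0, 2, 3, 1, 4, 5], [0, 2, 4, 1, 3, 5], [0, 2, 5, 1, 3, 4], [3, 1, 0, 2, 4, 5], [3, 1, 0, 4, 2, 5],
      [3, 1, 0, 5, 2, 4]] := by decide

theorem nx_lt : ∀ l < 6, ∀ r < 6, nx l r < 6 := by decide
theorem bk_lt : ∀ l < 6, ∀ r < 6, bk l r < 6 := by decide
theorem nx_bk : ∀ l < 6, ∀ r < 6, nx l (bk l r) = r := by decide
theorem bk_nx : ∀ l < 6, ∀ r < 6, bk l (nx l r) = r := by decide
theorem nx_own : ∀ l < 6, ∀ r < 2, nx l r < 4 := by decide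
theorem bk_own : ∀ l < 6, ∀ r < 2, bk l r < 4 := by decide
theorem bp_lt : ∀ i < 4, bp i < 4 := by decide
theorem bq_lt : ∀ i < 4, bq i < 4 := by decide

/-- the jump of the border `p | q` at the colour `x`: the border is the connecting arc of a neighbour
(own pair of the neighbour) and `x` is in the other pair of that neighbour -/
def jmp (lm lp p q x : ℕ) : Bool :=
  (((p == nx lp 0 && q == nx lp 1) || (p == nx lp 1 && q == nx lp 0)) && (x == nx lp 2 || x == nx lp 3)) ||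
  (((p == bk lm 0 && q == bk lm 1) || (p == bk lm 1 && q == bk lm 0)) && (x == bk lm 2 || x == bk lm 3))

/-- `{a,b,c}` is `{2,4,5}` or `{3,4,5}` (complement of a face of the vertex) -/
def tri (a b c : ℕ) : Bool :=
  2 ≤ a && a ≤ 5 && 2 ≤ b && b ≤ 5 && 2 ≤ c && c ≤ 5 && a != b && b != c && a != c && 11 ≤ a + b + c

/-- the facts of row X-C at the inner vertices `1 .. n-1` of a window of `n` links -/
structure Win (n : ℕ) (w : ℕ → ℕ) (N : ℕ → ℕ → ℕ → ℕ → ZMod 2) : Prop where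
  symm : ∀ j t x y, N j t x y = N j t y x
  eul : ∀ j t x, 0 < j → j < n → t < 4 → x < 6 → t ≠ x →
    ((List.range 6).map fun y => if y = t ∨ y = x then 0 else N j t x y).sum = 0
  brd : ∀ j i x, 0 < j → j < n → i < 4 → x < 6 → x ≠ bp i → x ≠ bq i →
    N j (bp i) (bq i) x + N j (bq i) (bp i) x =
      if jmp (w (j - 1)) (w j) (bp i) (bq i) x then 1 else 0
  par : ∀ j, 0 < j → j < n → N j 0 4 5 + N j 1 4 5 + N j 2 4 5 + N j 3 4 5 = 1
  zio : ∀ j x b, 0 < j → j < n → (x = 4 ∨ x = 5) → b < 2 → N j b (1 - b) x = 0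
  zp : ∀ j a b c, 0 < j → j < n → tri a b c = true → nx (w j) a < 4 →
    N j (nx (w j) a) (nx (w j) b) (nx (w j) c) = 0
  zm : ∀ j a b c, 0 < j → j < n → tri a b c = true → bk (w (j - 1)) a < 4 →
    N j (bk (w (j - 1)) a) (bk (w (j - 1)) b) (bk (w (j - 1)) c) = 0
  zpp : ∀ j a b c, 0 < j → j + 1 < n → tri a b c = true → nx (w j) (nx (w (j + 1)) a) < 4 →
    N j (nx (w j) (nx (w (j + 1)) a)) (nx (w j) (nx (w (j + 1)) b)) (nx (w j) (nx (w (j + 1)) c)) = 0
  zmm : ∀ j a b c, 2 ≤ j → j < n → tri a b c = true → bk (w (j - 1)) (bk (w (j - 2)) a) < 4 →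
    N j (bk (w (j - 1)) (bk (w (j - 2)) a)) (bk (w (j - 1)) (bk (w (j - 2)) b))
      (bk (w (j - 1)) (bk (w (j - 2)) c)) = 0
  glue : ∀ j a b c, 0 < j → j + 2 < n → a < 2 → b < 6 → c < 6 → a ≠ b → a ≠ c → b ≠ c →
    N j (nx (w j) a) (nx (w j) b) (nx (w j) c) =
      N (j + 2) (bk (w (j + 1)) a) (bk (w (j + 1)) b) (bk (w (j + 1)) c)

/-! ### masks -/

/-- number of the unknown `N j t x y` -/
def idx (j t x y : ℕ) : ℕ := 216 * j + 36 * t + 6 * min x y + max x y + 1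

/-- mask of the unknown -/
def vb (j t x y : ℕ) : ℕ := 2 ^ idx j t x y

/-- xor of a list -/
def xl : List ℕ → ℕ
  | [] => 0
  | a :: L => a ^^^ xl L

/-- valuation of the unknowns (number `0` is the constant `1`) -/
def rho (N : ℕ → ℕ → ℕ → ℕ → ZMod 2) (k : ℕ) : ZMod 2 :=
  if k = 0 then 1 else N ((k - 1) / 216) ((k - 1) / 36 % 6) ((k - 1) / 6 % 6) ((k - 1) % 6)

/-- value of a mask -/
def ev (N : ℕ → ℕ → ℕ → ℕ → ZMod 2) (m : ℕ) : ZMod 2 :=
  ∑ k ∈ Finset.range 1729, if m.testBit k then rho N k else 0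

theorem ev_xor (N : ℕ → ℕ → ℕ → ℕ → ZMod 2) (a b : ℕ) : ev N (a ^^^ b) = ev N a + ev N b := by
  unfold ev
  rw [← Finset.sum_add_distrib]
  refine Finset.sum_congr rfl fun k _ => ?_
  rw [Nat.testBit_xor]
  have h2 : ∀ z : ZMod 2, z + z = 0 := by decide
  cases a.testBit k <;> cases b.testBit k <;> simp [h2]

theorem ev_zero (N : ℕ → ℕ → ℕ → ℕ → ZMod 2) : ev N 0 = 0 := by
  unfold ev
  simp

theorem ev_two_pow (N : ℕ → ℕ → ℕ → ℕ → ZMod 2) {i : ℕ} (hi : i < 1729) : ev N (2 ^ i) = rho N i := by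
  unfold ev
  rw [Finset.sum_eq_single_of_mem i (Finset.mem_range.2 hi)]
  · simp
  · intro k _ hk
    simp [Ne.symm hk]

theorem ev_one (N : ℕ → ℕ → ℕ → ℕ → ZMod 2) : ev N 1 = 1 := by
  have h := ev_two_pow N (i := 0) (by norm_num)
  simpa [rho] using h

theorem ev_xl (N : ℕ → ℕ → ℕ → ℕ → ZMod 2) (L : List ℕ) : ev N (xl L) = (L.map (ev N)).sum := by
  induction L with
  | nil => simp [xl, ev_zero]
  | cons a L ih => simp [xl, ev_xor, ih]

theorem ev_vb {N : ℕ → ℕ → ℕ → ℕ → ZMod 2} (hs : ∀ j t x y, N j t x y = N j t y x) {j t x y : ℕ}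
    (hj : j < 8) (ht : t < 6) (hx : x < 6) (hy : y < 6) : ev N (vb j t x y) = N j t x y := by
  have key : ∀ x y, x < 6 → y < 6 → x ≤ y → ev N (vb j t x y) = N j t x y := by
    intro x y hx hy hxy
    unfold vb idx
    rw [min_eq_left hxy, max_eq_right hxy, ev_two_pow N (by omega)]
    unfold rho
    rw [if_neg (by omega)]
    congr 1 <;> omega
  rcases le_total x y with h | h
  · exact key x y hx hy h
  · have e : vb j t x y = vb j t y x := by
      unfold vb idx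
      rw [min_comm, max_comm]
    rw [e, key y x hy hx h, hs]

/-! ### the equations -/

/-- Euler equation -/
def f0 (j a b : ℕ) : ℕ :=
  if (a < 4 && b < 6 && a != b) = true then
    xl ((List.range 6).map fun y => if y = a ∨ y = b then 0 else vb j a b y) else 0

/-- border equation -/
def f1 (w : ℕ → ℕ) (j a b : ℕ) : ℕ :=
  if (a < 4 && b < 6 && b != bp a && b != bq a) = true then
    vb j (bp a) (bq a) b ^^^ (vb j (bq a) (bp a) b ^^^
      (if jmp (w (j - 1)) (w j) (bp a) (bq a) b then 1 else 0)) else 0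

/-- parity -/
def f2 (j : ℕ) : ℕ := vb j 0 4 5 ^^^ (vb j 1 4 5 ^^^ (vb j 2 4 5 ^^^ (vb j 3 4 5 ^^^ 1)))

/-- zeros `{I,O,e}`, `{I,O,f}` -/
def f3 (j a b : ℕ) : ℕ := if ((a == 4 || a == 5) && b < 2) = true then vb j b (1 - b) a else 0

/-- complements of the faces of `V_(j+1)` -/
def f4 (w : ℕ → ℕ) (j a b c : ℕ) : ℕ :=
  if (tri a b c && nx (w j) a < 4) = true then vb j (nx (w j) a) (nx (w j) b) (nx (w j) c) else 0

/-- complements of the faces of `V_(j-1)` -/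
def f5 (w : ℕ → ℕ) (j a b c : ℕ) : ℕ :=
  if (tri a b c && bk (w (j - 1)) a < 4) = true then
    vb j (bk (w (j - 1)) a) (bk (w (j - 1)) b) (bk (w (j - 1)) c) else 0

/-- complements of the faces of `V_(j+2)` -/
def f6 (n : ℕ) (w : ℕ → ℕ) (j a b c : ℕ) : ℕ :=
  if (tri a b c && j + 1 < n && nx (w j) (nx (w (j + 1)) a) < 4) = true then
    vb j (nx (w j) (nx (w (j + 1)) a)) (nx (w j) (nx (w (j + 1)) b))
      (nx (w j) (nx (w (j + 1)) c)) else 0

/-- complements of the faces of `V_(j-2)` -/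
def f7 (w : ℕ → ℕ) (j a b c : ℕ) : ℕ :=
  if (tri a b c && 2 ≤ j && bk (w (j - 1)) (bk (w (j - 2)) a) < 4) = true then
    vb j (bk (w (j - 1)) (bk (w (j - 2)) a)) (bk (w (j - 1)) (bk (w (j - 2)) b))
      (bk (w (j - 1)) (bk (w (j - 2)) c)) else 0

/-- gluing along the arc of `V_(j+1)` -/
def f8 (n : ℕ) (w : ℕ → ℕ) (j a b c : ℕ) : ℕ :=
  if (j + 2 < n && a < 2 && b < 6 && c < 6 && a != b && a != c && b != c) = true then
    vb j (nx (w j) a) (nx (w j) b) (nx (w j) c) ^^^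
      vb (j + 2) (bk (w (j + 1)) a) (bk (w (j + 1)) b) (bk (w (j + 1)) c) else 0

/-- mask of the equation with code `(fam, j, a, b, c)`; `0` if the code is not legal -/
def eqm (n : ℕ) (w : ℕ → ℕ) (fam j a b c : ℕ) : ℕ :=
  if (0 < j && j < n) = true then
    match fam with
    | 0 => f0 j a b
    | 1 => f1 w j a b
    | 2 => f2 j
    | 3 => f3 j a b
    | 4 => f4 w j a b c
    | 5 => f5 w j a b c
    | 6 => f6 n w j a b c
    | 7 => f7 w j a b c
    | 8 => f8 n w j a b c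
    | _ => 0
  else 0

theorem tri_lt {a b c : ℕ} (h : tri a b c = true) : a < 6 ∧ b < 6 ∧ c < 6 := by
  simp only [tri, Bool.and_eq_true, decide_eq_true_eq, bne_iff_ne] at h
  omega

section sound

variable {n : ℕ} {w : ℕ → ℕ} {N : ℕ → ℕ → ℕ → ℕ → ZMod 2}

theorem two_zero (z : ZMod 2) : z + z = 0 := by revert z; decide

theorem ev_f0 (H : Win n w N) {j : ℕ} (hj0 : 0 < j) (hjn : j < n) (hj8 : j < 8) (a b : ℕ) :
    ev N (f0 j a b) = 0 := by
  unfold f0
  split_ifs with h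
  swap
  · exact ev_zero N
  simp only [Bool.and_eq_true, decide_eq_true_eq, bne_iff_ne] at h
  obtain ⟨⟨ha, hb⟩, hab⟩ := h
  rw [ev_xl, ← H.eul j a b hj0 hjn ha hb hab, List.map_map]
  refine congrArg List.sum (List.map_congr_left fun y hy => ?_)
  have hy6 : y < 6 := List.mem_range.1 hy
  simp only [Function.comp]
  split_ifs with h
  · exact ev_zero N
  · exact ev_vb H.symm hj8 (by omega) hb hy6

theorem ev_f1 (H : Win n w N) {j : ℕ} (hj0 : 0 < j) (hjn : j < n) (hj8 : j < 8) (a b : ℕ) :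
    ev N (f1 w j a b) = 0 := by
  unfold f1
  by_cases h : (a < 4 && b < 6 && b != bp a && b != bq a) = true
  swap
  · rw [if_neg h]
    exact ev_zero N
  rw [if_pos h]
  simp only [Bool.and_eq_true, decide_eq_true_eq, bne_iff_ne] at h
  obtain ⟨⟨⟨ha, hb⟩, hp⟩, hq⟩ := h
  have e := H.brd j a b hj0 hjn ha hb hp hq
  have hp6 := bp_lt a ha
  have hq6 := bq_lt a ha
  rw [ev_xor, ev_xor, ev_vb H.symm hj8 (by omega) (by omega) hb,
    ev_vb H.symm hj8 (by omega) (by omega) hb, ← add_assoc, e]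
  split_ifs
  · rw [ev_one]
    exact two_zero 1
  · rw [ev_zero, add_zero]

theorem ev_f2 (H : Win n w N) {j : ℕ} (hj0 : 0 < j) (hjn : j < n) (hj8 : j < 8) :
    ev N (f2 j) = 0 := by
  unfold f2
  rw [ev_xor, ev_xor, ev_xor, ev_xor, ev_one, ev_vb H.symm hj8 (by norm_num) (by norm_num) (by norm_num),
    ev_vb H.symm hj8 (by norm_num) (by norm_num) (by norm_num),
    ev_vb H.symm hj8 (by norm_num) (by norm_num) (by norm_num),
    ev_vb H.symm hj8 (by norm_num) (by norm_num) (by norm_num)]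
  have e := H.par j hj0 hjn
  rw [← add_assoc, ← add_assoc, ← add_assoc, e]
  exact two_zero 1

theorem ev_f3 (H : Win n w N) {j : ℕ} (hj0 : 0 < j) (hjn : j < n) (hj8 : j < 8) (a b : ℕ) :
    ev N (f3 j a b) = 0 := by
  unfold f3
  split_ifs with h
  swap
  · exact ev_zero N
  simp only [Bool.and_eq_true, Bool.or_eq_true, decide_eq_true_eq, beq_iff_eq] at h
  obtain ⟨ha, hb⟩ := h
  rw [ev_vb H.symm hj8 (by omega) (by omega) (by omega)]
  exact H.zio j a b hj0 hjn ha hb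

theorem ev_f4 (H : Win n w N) (hw : ∀ i < n, w i < 6) {j : ℕ} (hj0 : 0 < j) (hjn : j < n) (hj8 : j < 8)
    (a b c : ℕ) : ev N (f4 w j a b c) = 0 := by
  unfold f4
  split_ifs with h
  swap
  · exact ev_zero N
  simp only [Bool.and_eq_true, decide_eq_true_eq] at h
  obtain ⟨ht, h4⟩ := h
  obtain ⟨la, lb, lc⟩ := tri_lt ht
  have hwj := hw j hjn
  rw [ev_vb H.symm hj8 (nx_lt _ hwj _ la) (nx_lt _ hwj _ lb) (nx_lt _ hwj _ lc)]
  exact H.zp j a b c hj0 hjn ht h4

theorem ev_f5 (H : Win n w N) (hw : ∀ i < n, w i < 6) {j : ℕ} (hj0 : 0 < j) (hjn : j < n) (hj8 : j < 8)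
    (a b c : ℕ) : ev N (f5 w j a b c) = 0 := by
  unfold f5
  split_ifs with h
  swap
  · exact ev_zero N
  simp only [Bool.and_eq_true, decide_eq_true_eq] at h
  obtain ⟨ht, h4⟩ := h
  obtain ⟨la, lb, lc⟩ := tri_lt ht
  have hwm := hw (j - 1) (by omega)
  rw [ev_vb H.symm hj8 (bk_lt _ hwm _ la) (bk_lt _ hwm _ lb) (bk_lt _ hwm _ lc)]
  exact H.zm j a b c hj0 hjn ht h4

theorem ev_f6 (H : Win n w N) (hw : ∀ i < n, w i < 6) {j : ℕ} (hj0 : 0 < j) (hjn : j < n) (hj8 : j < 8)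
    (a b c : ℕ) : ev N (f6 n w j a b c) = 0 := by
  unfold f6
  split_ifs with h
  swap
  · exact ev_zero N
  simp only [Bool.and_eq_true, decide_eq_true_eq] at h
  obtain ⟨⟨ht, hj1⟩, h4⟩ := h
  obtain ⟨la, lb, lc⟩ := tri_lt ht
  have hwj := hw j hjn
  have hw1 := hw (j + 1) hj1
  rw [ev_vb H.symm hj8 (nx_lt _ hwj _ (nx_lt _ hw1 _ la)) (nx_lt _ hwj _ (nx_lt _ hw1 _ lb))
    (nx_lt _ hwj _ (nx_lt _ hw1 _ lc))]
  exact H.zpp j a b c hj0 hj1 ht h4

theorem ev_f7 (H : Win n w N) (hw : ∀ i < n, w i < 6) {j : ℕ} (hj0 : 0 < j) (hjn : j < n) (hj8 : j < 8)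
    (a b c : ℕ) : ev N (f7 w j a b c) = 0 := by
  unfold f7
  split_ifs with h
  swap
  · exact ev_zero N
  simp only [Bool.and_eq_true, decide_eq_true_eq] at h
  obtain ⟨⟨ht, hj2⟩, h4⟩ := h
  obtain ⟨la, lb, lc⟩ := tri_lt ht
  have hwm := hw (j - 1) (by omega)
  have hw2 := hw (j - 2) (by omega)
  rw [ev_vb H.symm hj8 (bk_lt _ hwm _ (bk_lt _ hw2 _ la)) (bk_lt _ hwm _ (bk_lt _ hw2 _ lb))
    (bk_lt _ hwm _ (bk_lt _ hw2 _ lc))]
  exact H.zmm j a b c hj2 hjn ht h4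

theorem ev_f8 (H : Win n w N) (hn : n ≤ 8) (hw : ∀ i < n, w i < 6) {j : ℕ} (hj0 : 0 < j) (hjn : j < n)
    (hj8 : j < 8) (a b c : ℕ) : ev N (f8 n w j a b c) = 0 := by
  unfold f8
  split_ifs with h
  swap
  · exact ev_zero N
  simp only [Bool.and_eq_true, decide_eq_true_eq, bne_iff_ne] at h
  obtain ⟨⟨⟨⟨⟨⟨hj2, ha⟩, hb⟩, hc⟩, hab⟩, hac⟩, hbc⟩ := h
  have hwj := hw j hjn
  have hw1 := hw (j + 1) (by omega)
  rw [ev_xor, ev_vb H.symm hj8 (nx_lt _ hwj _ (by omega)) (nx_lt _ hwj _ hb) (nx_lt _ hwj _ hc),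
    ev_vb H.symm (by omega) (bk_lt _ hw1 _ (by omega)) (bk_lt _ hw1 _ hb) (bk_lt _ hw1 _ hc),
    H.glue j a b c hj0 hj2 ha hb hc hab hac hbc]
  exact two_zero _

theorem ev_eqm (H : Win n w N) (hn : n ≤ 8)
    (hw : ∀ i < n, w i < 6) (fam j a b c : ℕ) : ev N (eqm n w fam j a b c) = 0 := by
  unfold eqm
  by_cases hj : (0 < j && j < n) = true
  swap
  · rw [if_neg hj]
    exact ev_zero N
  rw [if_pos hj]
  simp only [Bool.and_eq_true, decide_eq_true_eq] at hj
  obtain ⟨hj0, hjn⟩ := hj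
  have hj8 : j < 8 := by omega
  rcases fam with _ | _ | _ | _ | _ | _ | _ | _ | _ | fam
  · exact ev_f0 H hj0 hjn hj8 a b
  · exact ev_f1 H hj0 hjn hj8 a b
  · exact ev_f2 H hj0 hjn hj8
  · exact ev_f3 H hj0 hjn hj8 a b
  · exact ev_f4 H hw hj0 hjn hj8 a b c
  · exact ev_f5 H hw hj0 hjn hj8 a b c
  · exact ev_f6 H hw hj0 hjn hj8 a b c
  · exact ev_f7 H hw hj0 hjn hj8 a b c
  · exact ev_f8 H hn hw hj0 hjn hj8 a b c
  · exact ev_zero N

end sound

/-- xor of the masks of a list of codes `fam + 16 j + 128 a + 1024 b + 8192 c` -/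
def certm (n : ℕ) (w : ℕ → ℕ) : List ℕ → ℕ
  | [] => 0
  | k :: L => eqm n w (k % 16) (k / 16 % 8) (k / 128 % 8) (k / 1024 % 8) (k / 8192 % 8) ^^^ certm n w L

theorem ev_certm {n : ℕ} {w : ℕ → ℕ} {N : ℕ → ℕ → ℕ → ℕ → ZMod 2} (H : Win n w N) (hn : n ≤ 8)
    (hw : ∀ i < n, w i < 6) (L : List ℕ) : ev N (certm n w L) = 0 := by
  induction L with
  | nil => exact ev_zero N
  | cons k L ih => rw [certm, ev_xor, ev_eqm H hn hw, ih, add_zero]

theorem no_win {n : ℕ} {w : ℕ → ℕ} {N : ℕ → ℕ → ℕ → ℕ → ZMod 2} (H : Win n w N) (hn : n ≤ 8)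
    (hw : ∀ i < n, w i < 6) (L : List ℕ) (h : certm n w L = 1) : False := by
  have e := ev_certm H hn hw L
  rw [h, ev_one] at e
  exact absurd e (by decide)

/-- word with code `u` (digits base 6) -/
def wd (u i : ℕ) : ℕ := u / 6 ^ i % 6

theorem wd_lt (u i : ℕ) : wd u i < 6 := Nat.mod_lt _ (by norm_num)

/-- code of the first `n` links -/
def cd (w : ℕ → ℕ) : ℕ → ℕ
  | 0 => 0
  | n + 1 => cd w n + w n * 6 ^ n

theorem cd_lt {w : ℕ → ℕ} (hw : ∀ i, w i < 6) (n : ℕ) : cd w n < 6 ^ n := by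
  induction n with
  | zero => simp [cd]
  | succ n ih =>
    rw [cd, pow_succ]
    have h := hw n
    have : w n * 6 ^ n ≤ 5 * 6 ^ n := Nat.mul_le_mul_right _ (by omega)
    omega

theorem wd_cd {w : ℕ → ℕ} (hw : ∀ i, w i < 6) {n i : ℕ} (hi : i < n) : wd (cd w n) i = w i := by
  induction n with
  | zero => omega
  | succ n ih =>
    unfold wd at *
    rw [cd]
    rcases Nat.lt_succ_iff_lt_or_eq.1 hi with h | h
    · obtain ⟨m, rfl⟩ : ∃ m, n = i + 1 + m := ⟨n - (i + 1), by omega⟩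
      have e : w (i + 1 + m) * 6 ^ (i + 1 + m) = 6 ^ i * (6 * (w (i + 1 + m) * 6 ^ m)) := by
        rw [pow_add, pow_add]; ring
      rw [e, Nat.add_mul_div_left _ _ (by positivity), Nat.add_mul_mod_self_left]
      exact ih h
    · subst h
      rw [mul_comm, Nat.add_mul_div_left _ _ (by positivity), Nat.div_eq_of_lt (cd_lt hw i), zero_add]
      exact Nat.mod_eq_of_lt (hw i)

theorem cd_succ (w : ℕ → ℕ) (n : ℕ) : cd w (n + 1) = w 0 + 6 * cd (fun i => w (i + 1)) n := by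
  induction n with
  | zero => simp [cd]
  | succ n ih =>
    rw [cd, ih, cd, pow_succ]
    ring

theorem Win.congr {n : ℕ} {w w' : ℕ → ℕ} {N : ℕ → ℕ → ℕ → ℕ → ZMod 2} (H : Win n w N)
    (h : ∀ i < n, w' i = w i) : Win n w' N where
  symm := H.symm
  eul := H.eul
  brd := fun j i x h0 hn => by
    rw [h j hn, h (j - 1) (by omega)]
    exact H.brd j i x h0 hn
  par := H.par
  zio := H.zio
  zp := fun j a b c h0 hn => by
    rw [h j hn]
    exact H.zp j a b c h0 hn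
  zm := fun j a b c h0 hn => by
    rw [h (j - 1) (by omega)]
    exact H.zm j a b c h0 hn
  zpp := fun j a b c h0 hn => by
    rw [h (j + 1) hn, h j (by omega)]
    exact H.zpp j a b c h0 hn
  zmm := fun j a b c h0 hn => by
    rw [h (j - 1) (by omega), h (j - 2) (by omega)]
    exact H.zmm j a b c h0 hn
  glue := fun j a b c h0 hn => by
    rw [h (j + 1) (by omega), h j (by omega)]
    exact H.glue j a b c h0 hn

/-- a table entry `(u, L)`: the word with code `u` is impossible -/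
def okc (n : ℕ) (e : ℕ × List ℕ) : Bool := certm n (wd e.1) e.2 == 1

theorem not_mem_of_okc {n : ℕ} (hn : n ≤ 8) {D : List (ℕ × List ℕ)} (hD : D.all (okc n) = true)
    {w : ℕ → ℕ} {N : ℕ → ℕ → ℕ → ℕ → ZMod 2} (H : Win n w N) (hw : ∀ i, w i < 6) :
    ∀ e ∈ D, e.1 ≠ cd w n := by
  rintro ⟨u, L⟩ he rfl
  have h := List.all_eq_true.1 hD _ he
  simp only [okc, beq_iff_eq] at h
  exact no_win (H.congr fun i hi => wd_cd hw hi) hn (fun i _ => wd_lt _ i) L h

/-- the bit mask of a list of numbers -/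
def msk : List ℕ → ℕ
  | [] => 0
  | u :: L => 2 ^ u ||| msk L

theorem testBit_msk (L : List ℕ) (v : ℕ) : (msk L).testBit v = true ↔ v ∈ L := by
  induction L with
  | nil => simp [msk]
  | cons u L ih =>
    rw [msk, Nat.testBit_or, Bool.or_eq_true, ih, Nat.testBit_two_pow, List.mem_cons]
    simp [eq_comm]

/-- one extension step: words of length `n` in `A`, dead words `D` of length `n + 1`, alive words `A'` -/
def stp (n : ℕ) (A : List ℕ) (mA mD mA' : ℕ) : Bool :=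
  A.all fun u => (List.range 6).all fun l =>
    !(mA.testBit ((u + l * 6 ^ n) / 6)) || mD.testBit (u + l * 6 ^ n) || mA'.testBit (u + l * 6 ^ n)

theorem stp_sound {n : ℕ} {A A' : List ℕ} {D : List ℕ} (h : stp n A (msk A) (msk D) (msk A') = true)
    {w : ℕ → ℕ} (hw : ∀ i, w i < 6) (h0 : cd w n ∈ A) (h1 : cd (fun i => w (i + 1)) n ∈ A)
    (hD : cd w (n + 1) ∉ D) : cd w (n + 1) ∈ A' := by
  have a := List.all_eq_true.1 h _ h0
  have b := List.all_eq_true.1 a (w n) (List.mem_range.2 (hw n))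
  have e : cd w n + w n * 6 ^ n = cd w (n + 1) := rfl
  rw [e] at b
  have e2 : cd w (n + 1) / 6 = cd (fun i => w (i + 1)) n := by
    rw [cd_succ, Nat.add_mul_div_left _ _ (by norm_num), Nat.div_eq_of_lt (hw 0), zero_add]
  rw [e2] at b
  simp only [Bool.or_eq_true, Bool.not_eq_true', testBit_msk] at b
  rcases b with (b | b) | b
  · rw [← Bool.not_eq_true, testBit_msk] at b
    exact absurd h1 b
  · exact absurd b hD
  · exact b

end Vale.Agent.P032.H274
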